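import Mathlib

set_option autoImplicit false

open MeasureTheory Set Filter
open scoped Topology

namespace Crest.Agent.Helper1

/-- Heaviside function. -/
noncomputable def hv (v : ℝ) : ℝ := if 0 ≤ v then 1 else 0

/-- One-step operator: `T b φ v = E φ(v + b X)` for `X ~ Exp(1)`. -/
noncomputable def T (b : ℝ) (φ : ℝ → ℝ) (v : ℝ) : ℝ :=
  ∫ x in Ioi (0:ℝ), φ (v + b * x) * Real.exp (-x)

/-- Iterated operator; the coordinate `a 0` is integrated innermost. -/
noncomputable def TN : (N : ℕ) → (Fin N → ℝ) → (ℝ → ℝ) → ℝ → ℝ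
  | 0, _, φ => φ
  | (n+1), a, φ => TN n (Fin.tail a) (T (a 0) φ)

/-- Measurable functions with values in `[0,1]`. -/
structure BM (φ : ℝ → ℝ) : Prop where
  meas : Measurable φ
  nonneg : ∀ y, 0 ≤ φ y
  le_one : ∀ y, φ y ≤ 1

lemma hv_nonneg (v : ℝ) : 0 ≤ hv v := by unfold hv; split_ifs <;> norm_num
lemma hv_le_one (v : ℝ) : hv v ≤ 1 := by unfold hv; split_ifs <;> norm_num

lemma measurable_hv : Measurable hv := by
  unfold hv
  exact Measurable.ite measurableSet_Ici measurable_const measurable_const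

lemma bm_hv : BM hv := ⟨measurable_hv, hv_nonneg, hv_le_one⟩

lemma BM.integrableOn {φ : ℝ → ℝ} (h : BM φ) (b v : ℝ) :
    IntegrableOn (fun x => φ (v + b * x) * Real.exp (-x)) (Ioi 0) := by
  refine Integrable.mono' (integrableOn_exp_neg_Ioi 0) ?_ ?_
  · have : Measurable (fun x : ℝ => φ (v + b * x) * Real.exp (-x)) :=
      (h.meas.comp (by fun_prop)).mul (by fun_prop)
    exact this.aestronglyMeasurable
  · refine Filter.Eventually.of_forall (fun x => ?_)
    have h0 := h.nonneg (v + b * x)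
    have h1 := h.le_one (v + b * x)
    have he := Real.exp_pos (-x)
    rw [Real.norm_eq_abs, abs_of_nonneg (by positivity)]
    nlinarith

lemma T_nonneg {φ : ℝ → ℝ} (h : ∀ y, 0 ≤ φ y) (b v : ℝ) : 0 ≤ T b φ v := by
  unfold T
  exact setIntegral_nonneg measurableSet_Ioi (fun x _ => mul_nonneg (h _) (Real.exp_pos _).le)

lemma T_mono {φ₁ φ₂ : ℝ → ℝ} (b v : ℝ)
    (h1 : IntegrableOn (fun x => φ₁ (v + b * x) * Real.exp (-x)) (Ioi 0))
    (h2 : IntegrableOn (fun x => φ₂ (v + b * x) * Real.exp (-x)) (Ioi 0))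
    (h : ∀ y, φ₁ y ≤ φ₂ y) : T b φ₁ v ≤ T b φ₂ v := by
  unfold T
  exact setIntegral_mono h1 h2 (fun x => mul_le_mul_of_nonneg_right (h _) (Real.exp_pos _).le)

lemma T_const (b k v : ℝ) : T b (fun _ => k) v = k := by
  unfold T
  rw [integral_const_mul, integral_exp_neg_Ioi_zero, mul_one]

lemma T_le_one {φ : ℝ → ℝ} (h : BM φ) (b v : ℝ) : T b φ v ≤ 1 := by
  have := T_mono b v (h.integrableOn b v) ((⟨measurable_const, fun _ => zero_le_one, fun _ => le_rfl⟩ : BM (fun _ => (1:ℝ))).integrableOn b v) h.le_one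
  rwa [T_const] at this

lemma measurable_T {φ : ℝ → ℝ} (h : Measurable φ) (b : ℝ) : Measurable (T b φ) := by
  unfold T
  have hm : Measurable (fun p : ℝ × ℝ => φ (p.1 + b * p.2) * Real.exp (-p.2)) :=
    (h.comp (by fun_prop)).mul (by fun_prop)
  exact (hm.stronglyMeasurable.integral_prod_right').measurable

lemma BM.T {φ : ℝ → ℝ} (h : BM φ) (b : ℝ) : BM (T b φ) :=
  ⟨measurable_T h.meas b, fun v => T_nonneg h.nonneg b v, fun v => T_le_one h b v⟩

lemma T_one_sub {φ : ℝ → ℝ} (h : BM φ) (b v : ℝ) :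
    T b (fun y => 1 - φ y) v = 1 - T b φ v := by
  unfold T
  have : ∀ x : ℝ, (1 - φ (v + b * x)) * Real.exp (-x) = Real.exp (-x) - φ (v + b * x) * Real.exp (-x) := by
    intro x; ring
  simp_rw [this]
  rw [integral_sub (integrableOn_exp_neg_Ioi 0) (h.integrableOn b v), integral_exp_neg_Ioi_zero]

lemma BM.one_sub {φ : ℝ → ℝ} (h : BM φ) : BM (fun y => 1 - φ y) :=
  ⟨measurable_const.sub h.meas, fun y => by linarith [h.le_one y], fun y => by linarith [h.nonneg y]⟩

lemma T_zero (φ : ℝ → ℝ) (v : ℝ) : T 0 φ v = φ v := by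
  unfold T
  simp only [zero_mul, add_zero]
  rw [integral_const_mul, integral_exp_neg_Ioi_zero, mul_one]

lemma BM.TN {φ : ℝ → ℝ} (h : BM φ) : ∀ (N : ℕ) (a : Fin N → ℝ), BM (TN N a φ) := by
  intro N
  induction N generalizing φ with
  | zero => intro a; exact h
  | succ n ih => intro a; exact ih (h.T (a 0)) (Fin.tail a)

lemma TN_one_sub {φ : ℝ → ℝ} (h : BM φ) : ∀ (N : ℕ) (a : Fin N → ℝ) (v : ℝ),
    TN N a (fun y => 1 - φ y) v = 1 - TN N a φ v := by
  intro N
  induction N generalizing φ with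
  | zero => intro a v; rfl
  | succ n ih =>
    intro a v
    show TN n (Fin.tail a) (T (a 0) (fun y => 1 - φ y)) v = 1 - TN n (Fin.tail a) (T (a 0) φ) v
    have : T (a 0) (fun y => 1 - φ y) = fun y => 1 - T (a 0) φ y := by
      funext y; exact T_one_sub h (a 0) y
    rw [this]
    exact ih (h.T (a 0)) (Fin.tail a) v

end Crest.Agent.Helper1
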