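import Mathlib
import Crest.Agent.Helper5.ShearMeasure

set_option autoImplicit false

open MeasureTheory

namespace Crest.Agent.Helper1

open Crest.Agent.Helper5

/-- Per-cell packing count for the sheared-square covering lemma (S0326, piece (b)). -/
theorem cell_packing (q : E2) (x y : ℝ) (hxy : x ^ 2 + y ^ 2 = 1) (r ρ C : ℝ) (hr : 0 < r)
    (hρ : 0 < ρ) (hC : 0 ≤ C) (Q : ℤ × ℤ) (I : Finset (ℤ × ℤ))
    (hI : ∀ ij ∈ I, ∃ p, p ∈ cell ρ Q ∧ ‖p - sqP q x y r ij.1 ij.2‖ ≤ C * r) :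
    (I.card : ℝ) * r ^ 2 ≤ (ρ + 2 * (C + 2) * r) ^ 2 := by
  refine packing_count I (fun ij => fsq q x y r ij.1 ij.2)
    (fun ij _ => measurableSet_fsq q x y r _ _) ?_ (r ^ 2) (by positivity)
    (fun ij _ => volume_fsq q x y r hxy hr.le _ _)
    (hbox (ρ * Q.1 - (C + 2) * r) (ρ * (Q.1 + 1) + (C + 2) * r)
      (ρ * Q.2 - (C + 2) * r) (ρ * (Q.2 + 1) + (C + 2) * r)) ?_
    ((ρ + 2 * (C + 2) * r) ^ 2) (by positivity) ?_
  · intro ij _ ij' _ hne
    exact fsq_disjoint q x y r hr (by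
      rcases ij with ⟨i, j⟩
      rcases ij' with ⟨i', j'⟩
      exact hne)
  · intro ij hij z hz
    obtain ⟨p, hp, hpd⟩ := hI ij hij
    have h1 := norm_sub_sqP_le_of_mem_fsq q z x y r hxy hr ij.1 ij.2 hz
    have h2 : ‖z - p‖ ≤ (C + 2) * r := by
      have e : z - p = (z - sqP q x y r ij.1 ij.2) - (p - sqP q x y r ij.1 ij.2) := by abel
      rw [e]
      calc ‖(z - sqP q x y r ij.1 ij.2) - (p - sqP q x y r ij.1 ij.2)‖
          ≤ ‖z - sqP q x y r ij.1 ij.2‖ + ‖p - sqP q x y r ij.1 ij.2‖ := norm_sub_le _ _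
        _ ≤ 2 * r + C * r := add_le_add h1 hpd
        _ = (C + 2) * r := by ring
    have h0 := (abs_coord_le_norm (z - p) 0).trans h2
    have h1' := (abs_coord_le_norm (z - p) 1).trans h2
    have e0 : (z - p) 0 = z 0 - p 0 := rfl
    have e1 : (z - p) 1 = z 1 - p 1 := rfl
    rw [e0] at h0
    rw [e1] at h1'
    have h0' := abs_le.1 h0
    have h1'' := abs_le.1 h1'
    rw [cell, mem_hbox] at hp
    rw [mem_hbox]
    refine ⟨by linarith [hp.1], by linarith [hp.2.1], by linarith [hp.2.2.1],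
      by linarith [hp.2.2.2]⟩
  · rw [volume_hbox, ← ENNReal.ofReal_mul (by nlinarith)]
    apply le_of_eq
    congr 1
    ring

end Crest.Agent.Helper1
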