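import Crest.Agent.Helper1.Integrals

set_option autoImplicit false

open MeasureTheory Set Filter
open scoped Topology

namespace Crest.Agent.Helper1

/-- the constant `κ = (4/9) e^{-1/3}` -/
noncomputable def kap : ℝ := 4 / 9 * Real.exp (-(1 / 3))

/-- `KK t u = ∫_0^∞ ω(y) Gexp t (u - y) dy` -/
noncomputable def KK (t u : ℝ) : ℝ := ∫ y in Ioi (0:ℝ), om y * Gexp t (u - y)

lemma Gexp_pos (t v : ℝ) : 0 < Gexp t v := lt_min one_pos (Real.exp_pos _)
lemma Gexp_le_one (t v : ℝ) : Gexp t v ≤ 1 := min_le_left _ _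
lemma continuous_Gexp (t : ℝ) : Continuous (Gexp t) := by unfold Gexp; fun_prop

lemma Gexp_mono {t : ℝ} (ht : 0 < t) {v v' : ℝ} (h : v ≤ v') : Gexp t v ≤ Gexp t v' :=
  min_le_min le_rfl (Real.exp_le_exp.2 (div_le_div_of_nonneg_right h ht.le))

lemma integrableOn_om_Gexp (t u : ℝ) :
    IntegrableOn (fun y => om y * Gexp t (u - y)) (Ioi 0) := by
  refine Integrable.mono' (integrableOn_om 0 le_rfl).abs ?_ ?_
  · exact (continuous_om.mul ((continuous_Gexp t).comp (by fun_prop))).aestronglyMeasurable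
  · refine Eventually.of_forall (fun y => ?_)
    rw [Real.norm_eq_abs, abs_mul, abs_of_pos (Gexp_pos t _)]
    have := abs_nonneg (om y)
    nlinarith [Gexp_le_one t (u - y)]

lemma KK_eq_of_nonpos {t u : ℝ} (ht : 0 < t) (hu : u ≤ 0) :
    KK t u = Real.exp (u / t) * (1 / (1 + 1 / t) ^ 2) := by
  unfold KK
  have ha : 0 < 1 + 1 / t := by positivity
  have h1 : ∀ y ∈ Ioi (0:ℝ), om y * Gexp t (u - y)
      = Real.exp (u / t) * (y * Real.exp (-(1 + 1 / t) * y)) := by
    intro y hy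
    have hy0 : 0 < y := hy
    have hle : Real.exp ((u - y) / t) ≤ 1 := by
      rw [Real.exp_le_one_iff]; exact div_nonpos_of_nonpos_of_nonneg (by linarith) ht.le
    unfold Gexp om
    rw [min_eq_right hle]
    rw [show (u - y) / t = u / t + -(y / t) by ring, Real.exp_add,
      show -(1 + 1 / t) * y = -y + -(y / t) by ring, Real.exp_add]
    ring
  rw [setIntegral_congr_fun measurableSet_Ioi h1, integral_const_mul,
    integral_xexp _ ha 0 le_rfl]
  simp

lemma kap_le_KK_of_ge {t : ℝ} (ht : 4 / 3 ≤ t) : kap ≤ KK t (4 / 3 - t) := by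
  have ht0 : 0 < t := by linarith
  rw [KK_eq_of_nonpos ht0 (by linarith)]
  unfold kap
  have hapos : 0 < 1 + 1 / t := by positivity
  have hsplit : (4 / 3 - t) / t = -(1 / 3) + (2 / t - 1) / 3 + (2 / t - 1) / 3 := by
    field_simp; ring
  rw [hsplit, Real.exp_add, Real.exp_add]
  have hza : 2 / 3 * (1 + 1 / t) ≤ Real.exp ((2 / t - 1) / 3) := by
    have := Real.add_one_le_exp ((2 / t - 1) / 3)
    have e : (2 / t - 1) / 3 + 1 = 2 / 3 * (1 + 1 / t) := by field_simp; ring
    linarith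
  have hsq : 4 / 9 * (1 + 1 / t) ^ 2
      ≤ Real.exp ((2 / t - 1) / 3) * Real.exp ((2 / t - 1) / 3) := by
    have h0 : 0 ≤ 2 / 3 * (1 + 1 / t) := by positivity
    nlinarith
  have hE := Real.exp_pos (-(1 / 3))
  rw [mul_one_div, le_div_iff₀ (by positivity)]
  nlinarith [mul_le_mul_of_nonneg_left hsq hE.le]

lemma KK_eq_of_pos {t u : ℝ} (ht : 0 < t) (hu : 0 < u) :
    KK t u = 1 - Real.exp (-u) * ((u + 1) - u / (1 + 1 / t) - 1 / (1 + 1 / t) ^ 2) := by
  unfold KK
  have ha : 0 < 1 + 1 / t := by positivity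
  have hint := integrableOn_om_Gexp t u
  rw [← intervalIntegral.integral_interval_add_Ioi hint (hint.mono_set (Ioi_subset_Ioi hu.le)),
    intervalIntegral.integral_of_le hu.le]
  have h1 : ∀ y ∈ Ioc (0:ℝ) u, om y * Gexp t (u - y) = om y := by
    intro y hy
    have hge : (1:ℝ) ≤ Real.exp ((u - y) / t) :=
      Real.one_le_exp (div_nonneg (by linarith [hy.2]) ht.le)
    unfold Gexp
    rw [min_eq_left hge, mul_one]
  have h2 : ∀ y ∈ Ioi u, om y * Gexp t (u - y)
      = Real.exp (u / t) * (y * Real.exp (-(1 + 1 / t) * y)) := by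
    intro y hy
    have hy0 : u < y := hy
    have hle : Real.exp ((u - y) / t) ≤ 1 := by
      rw [Real.exp_le_one_iff]; exact div_nonpos_of_nonpos_of_nonneg (by linarith) ht.le
    unfold Gexp om
    rw [min_eq_right hle]
    rw [show (u - y) / t = u / t + -(y / t) by ring, Real.exp_add,
      show -(1 + 1 / t) * y = -y + -(y / t) by ring, Real.exp_add]
    ring
  rw [setIntegral_congr_fun measurableSet_Ioc h1, setIntegral_congr_fun measurableSet_Ioi h2,
    integral_const_mul, integral_xexp _ ha u hu.le]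
  have h3 : ∫ y in Ioc (0:ℝ) u, om y = 1 - (u + 1) * Real.exp (-u) := by
    rw [← intervalIntegral.integral_of_le hu.le,
      ← intervalIntegral.integral_Ioi_sub_Ioi (integrableOn_om 0 le_rfl) hu.le,
      integral_om 0 le_rfl, integral_om u hu.le]
    simp
  rw [h3]
  have h4 : Real.exp (u / t) * Real.exp (-(1 + 1 / t) * u) = Real.exp (-u) := by
    rw [← Real.exp_add]; congr 1; field_simp; ring
  linear_combination (u / (1 + 1 / t) + 1 / (1 + 1 / t) ^ 2) * h4

lemma poly_ineq {u : ℝ} (hu0 : 0 ≤ u) (hu1 : u ≤ 4 / 3) :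
    49 * (2 * (4 / 3 - u) + 1 + u * ((4 / 3 - u) + 1))
      ≤ 33 * ((4 / 3 - u) + 1) ^ 2 * (1 + u + u ^ 2 / 2 + u ^ 3 / 6) := by
  have s1 : 0 ≤ 11 / 2 * u ^ 2 - 55 / 6 * u + 71 / 18 := by nlinarith [sq_nonneg (u - 5 / 6)]
  have s2 : 0 ≤ u ^ 2 * (11 / 2 * u ^ 2 - 55 / 6 * u + 71 / 18) := mul_nonneg (sq_nonneg u) s1
  have s3 : 0 ≤ 28 / 3 + 107 / 6 * u - 18 * u ^ 2 := by
    nlinarith [mul_nonneg (sub_nonneg.2 hu1) (by linarith : (0:ℝ) ≤ u + 37 / 108)]
  have s4 : 0 ≤ u * (28 / 3 + 107 / 6 * u - 18 * u ^ 2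
      + u ^ 2 * (11 / 2 * u ^ 2 - 55 / 6 * u + 71 / 18)) :=
    mul_nonneg hu0 (by linarith)
  nlinarith [s4]

lemma kap_le : kap ≤ 16 / 49 := by
  unfold kap
  have h1 : (49:ℝ) / 36 ≤ Real.exp (1 / 3) := by
    have := Real.quadratic_le_exp_of_nonneg (x := 1 / 3) (by norm_num)
    norm_num at this ⊢; linarith
  have h2 : Real.exp (-(1 / 3)) * Real.exp (1 / 3) = 1 := by rw [← Real.exp_add]; simp
  have h3 := Real.exp_pos (-(1 / 3))
  nlinarith

lemma bracket_eq {t : ℝ} (ht : 0 < t) (u : ℝ) :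
    (u + 1) - u / (1 + 1 / t) - 1 / (1 + 1 / t) ^ 2
      = (2 * t + 1 + u * (t + 1)) / (t + 1) ^ 2 := by
  have ht' : t ≠ 0 := ht.ne'
  have ht1 : t + 1 ≠ 0 := by positivity
  have h1 : 1 + 1 / t = (t + 1) / t := by field_simp
  rw [h1]
  field_simp
  ring

lemma kap_le_KK_of_lt {t : ℝ} (ht0 : 0 < t) (ht : t < 4 / 3) : kap ≤ KK t (4 / 3 - t) := by
  obtain ⟨u, rfl⟩ : ∃ u, t = 4 / 3 - u := ⟨4 / 3 - t, by ring⟩
  have hu0 : 0 < u := by linarith
  have hu1 : u ≤ 4 / 3 := by linarith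
  rw [show 4 / 3 - (4 / 3 - u) = u by ring, KK_eq_of_pos ht0 hu0]
  have htp : 0 < (4 / 3 - u) + 1 := by linarith
  rw [bracket_eq ht0 u]
  have hexp : 1 + u + u ^ 2 / 2 + u ^ 3 / 6 ≤ Real.exp u := by
    have := Real.sum_le_exp_of_nonneg hu0.le 4
    simp [Finset.sum_range_succ, Nat.factorial] at this
    linarith
  have hpoly := poly_ineq hu0.le hu1
  have he : Real.exp (-u) * Real.exp u = 1 := by rw [← Real.exp_add]; simp
  have hepos := Real.exp_pos (-u)
  have hmain : Real.exp (-u)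
      * ((2 * (4 / 3 - u) + 1 + u * ((4 / 3 - u) + 1)) / ((4 / 3 - u) + 1) ^ 2) ≤ 33 / 49 := by
    rw [← mul_div_assoc, div_le_iff₀ (by positivity)]
    have hN : 2 * (4 / 3 - u) + 1 + u * ((4 / 3 - u) + 1)
        ≤ 33 / 49 * ((4 / 3 - u) + 1) ^ 2 * Real.exp u := by
      have := mul_le_mul_of_nonneg_left hexp
        (by positivity : (0:ℝ) ≤ 33 / 49 * ((4 / 3 - u) + 1) ^ 2)
      linarith
    calc Real.exp (-u) * (2 * (4 / 3 - u) + 1 + u * ((4 / 3 - u) + 1))
        ≤ Real.exp (-u) * (33 / 49 * ((4 / 3 - u) + 1) ^ 2 * Real.exp u) :=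
          mul_le_mul_of_nonneg_left hN hepos.le
      _ = 33 / 49 * ((4 / 3 - u) + 1) ^ 2 * (Real.exp (-u) * Real.exp u) := by ring
      _ = 33 / 49 * ((4 / 3 - u) + 1) ^ 2 := by rw [he, mul_one]
  have := kap_le
  linarith

lemma kap_le_KK {t : ℝ} (ht0 : 0 < t) : kap ≤ KK t (4 / 3 - t) := by
  rcases lt_or_ge t (4 / 3) with h | h
  · exact kap_le_KK_of_lt ht0 h
  · exact kap_le_KK_of_ge h

/-- difference of shifted Heaviside functions -/
lemma hv_diff (p q : ℝ) :
    Integrable (fun y => hv (p - y) - hv (q - y)) ∧ ∫ y, (hv (p - y) - hv (q - y)) = p - q := by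
  have key : ∀ p q : ℝ, q ≤ p →
      Integrable (fun y => hv (p - y) - hv (q - y)) ∧ ∫ y, (hv (p - y) - hv (q - y)) = p - q := by
    intro p q hqp
    have heq : (fun y => hv (p - y) - hv (q - y)) = (Ioc q p).indicator (fun _ => (1:ℝ)) := by
      funext y
      by_cases h1 : y ≤ q
      · have hp : 0 ≤ p - y := by linarith
        have hq : 0 ≤ q - y := by linarith
        have : y ∉ Ioc q p := fun hm => absurd hm.1 (not_lt.2 h1)
        simp [hv, hp, hq, this]
      · have h1' : q < y := not_le.1 h1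
        have hq : ¬ (0 ≤ q - y) := by rw [not_le]; linarith
        by_cases h2 : y ≤ p
        · have hp : 0 ≤ p - y := by linarith
          have : y ∈ Ioc q p := ⟨h1', h2⟩
          simp [hv, hp, hq, this]
        · have hp : ¬ (0 ≤ p - y) := by rw [not_le]; rw [not_le] at h2; linarith
          have : y ∉ Ioc q p := fun hm => h2 hm.2
          simp [hv, hp, hq, this]
    rw [heq]
    refine ⟨(integrable_indicator_iff measurableSet_Ioc).2 (integrableOn_const (by simp)), ?_⟩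
    rw [integral_indicator measurableSet_Ioc, ← intervalIntegral.integral_of_le hqp]
    simp
  rcases le_total q p with h | h
  · exact key p q h
  · have h2 := key q p h
    have heq : (fun y => hv (p - y) - hv (q - y)) = fun y => -(hv (q - y) - hv (p - y)) := by
      funext y; ring
    rw [heq]
    refine ⟨h2.1.neg, ?_⟩
    rw [integral_neg, h2.2]; ring

/-- mass of the comparison profile relative to a Heaviside function -/
lemma Gexp_sub_hv {t : ℝ} (ht : 0 < t) (u c : ℝ) :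
    Integrable (fun y => Gexp t (u - y) - hv (c - y))
      ∧ ∫ y, (Gexp t (u - y) - hv (c - y)) = t + u - c := by
  have hb := T_hv_sub_hv t
  have hT : T t hv = Gexp t := funext (T_hv_pos ht)
  rw [hT] at hb
  have h1 : Integrable (fun y => Gexp t (u - y) - hv (u - y)) := hb.1.comp_sub_left u
  have h1' : ∫ y, (Gexp t (u - y) - hv (u - y)) = t := by
    rw [integral_sub_left_eq_self (fun v => Gexp t v - hv v) volume u]; exact hb.2
  have h2 := hv_diff u c
  have heq : (fun y => Gexp t (u - y) - hv (c - y))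
      = fun y => (Gexp t (u - y) - hv (u - y)) + (hv (u - y) - hv (c - y)) := by
    funext y; ring
  rw [heq]
  refine ⟨h1.add h2.1, ?_⟩
  rw [integral_add h1 h2.1, h1', h2.2]; ring

lemma KK_mono {t : ℝ} (ht : 0 < t) {u u' : ℝ} (h : u ≤ u') : KK t u ≤ KK t u' := by
  unfold KK
  refine setIntegral_mono_on (integrableOn_om_Gexp t u) (integrableOn_om_Gexp t u')
    measurableSet_Ioi (fun y hy => ?_)
  exact mul_le_mul_of_nonneg_left (Gexp_mono ht (by linarith)) (om_nonneg (le_of_lt hy))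

lemma KK_lip {t : ℝ} (ht : 0 < t) {u u' : ℝ} (h : u ≤ u') :
    KK t u' - KK t u ≤ (u' - u) * Real.exp (-1) := by
  unfold KK
  rw [← integral_sub (integrableOn_om_Gexp t u') (integrableOn_om_Gexp t u)]
  have hD : Integrable (fun y => Gexp t (u' - y) - Gexp t (u - y)) ∧
      ∫ y, (Gexp t (u' - y) - Gexp t (u - y)) = u' - u := by
    have h1 := Gexp_sub_hv ht u' 0
    have h2 := Gexp_sub_hv ht u 0
    have heq : (fun y => Gexp t (u' - y) - Gexp t (u - y))
        = fun y => (Gexp t (u' - y) - hv (0 - y)) - (Gexp t (u - y) - hv (0 - y)) := by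
      funext y; ring
    rw [heq]
    refine ⟨h1.1.sub h2.1, ?_⟩
    rw [integral_sub h1.1 h2.1, h1.2, h2.2]; ring
  have hDnn : ∀ y, 0 ≤ Gexp t (u' - y) - Gexp t (u - y) := fun y =>
    sub_nonneg.2 (Gexp_mono ht (by linarith))
  calc ∫ y in Ioi (0:ℝ), (om y * Gexp t (u' - y) - om y * Gexp t (u - y))
      ≤ ∫ y in Ioi (0:ℝ), Real.exp (-1) * (Gexp t (u' - y) - Gexp t (u - y)) := by
        refine setIntegral_mono_on
          ((integrableOn_om_Gexp t u').sub (integrableOn_om_Gexp t u))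
          (hD.1.integrableOn.const_mul _) measurableSet_Ioi (fun y _ => ?_)
        have := mul_le_mul_of_nonneg_right (om_le y) (hDnn y)
        linarith
    _ = Real.exp (-1) * ∫ y in Ioi (0:ℝ), (Gexp t (u' - y) - Gexp t (u - y)) :=
        integral_const_mul _ _
    _ ≤ Real.exp (-1) * ∫ y, (Gexp t (u' - y) - Gexp t (u - y)) := by
        refine mul_le_mul_of_nonneg_left ?_ (Real.exp_pos _).le
        exact setIntegral_le_integral hD.1 (Eventually.of_forall hDnn)
    _ = (u' - u) * Real.exp (-1) := by rw [hD.2]; ring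

lemma kap_le_KK_of_mu_nonneg {t u : ℝ} (ht : 0 < t) (h : 4 / 3 - t ≤ u) : kap ≤ KK t u :=
  (kap_le_KK ht).trans (KK_mono ht h)

lemma kap_le_KK_of_mu_nonpos {t u : ℝ} (ht : 0 < t) (h : u ≤ 4 / 3 - t) :
    kap - (4 / 3 - t - u) * Real.exp (-1) ≤ KK t u := by
  have h1 := KK_lip ht h
  have h2 := kap_le_KK ht
  linarith

end Crest.Agent.Helper1
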