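import Mathlib
import Crest.Agent.Helper7.CoverDefs

set_option autoImplicit false

namespace Crest.Agent.Helper1

open Crest.Agent.Helper7.Cover

/-- product of a number in `[-1,1]` with a number in `[-B,B]` -/
lemma mul_le_of_bounds (p d B : ℝ) (hp1 : -1 ≤ p) (hp2 : p ≤ 1) (hd1 : -B ≤ d) (hd2 : d ≤ B) :
    p * d ≤ B := by
  nlinarith [mul_nonneg (sub_nonneg.2 hp2) (by linarith : 0 ≤ B + d),
    mul_nonneg (by linarith : 0 ≤ 1 + p) (sub_nonneg.2 hd2)]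

set_option maxHeartbeats 3200000 in
/-- the contradiction chain: a point cannot be too high in both families -/
lemma cover_contra (c δ η : ℝ) (hc : c = 1 / 1000) (hδ : δ = 1 / 2000000) (hη : η = 1 / 200)
    (τi τj Ai Aj x y s : ℝ)
    (hx : |x| ≤ 1 - s) (hy : |y| ≤ s) (hτi : |τi| ≤ 1) (hτj : |τj| ≤ 1)
    (hAi0 : 0 ≤ Ai) (hAi1 : Ai ≤ (1 + τi ^ 2) / 2) (hAj0 : 0 ≤ Aj) (hAj1 : Aj ≤ (1 + τj ^ 2) / 2)
    (h1 : (τi - δ / 2) * (s - c * x * τi) ≤ y - c * x * Ai)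
    (h2 : y - c * x * Ai ≤ (τi + δ / 2) * (s - c * x * τi))
    (h3 : (τj - δ / 2) * (1 - s + c * y * τj) ≤ x + c * y * Aj)
    (h4 : x + c * y * Aj ≤ (τj + δ / 2) * (1 - s + c * y * τj))
    (h5 : 1 / 2 + c ^ 2 * ((τi ^ 2 + τi ^ 4) / 4 + η) < s - c * x * τi)
    (h6 : 1 / 2 + c ^ 2 * ((τj ^ 2 + τj ^ 4) / 4 + η) < 1 - s + c * y * τj) : False := by
  subst hc hδ hη
  obtain ⟨hx1, hx2⟩ := abs_le.1 hx
  obtain ⟨hy1, hy2⟩ := abs_le.1 hy
  obtain ⟨hi1, hi2⟩ := abs_le.1 hτi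
  obtain ⟨hj1, hj2⟩ := abs_le.1 hτj
  have hs0 : 0 ≤ s := (abs_nonneg y).trans hy
  have hs1 : s ≤ 1 := by linarith [abs_nonneg x]
  have hti2 : τi ^ 2 ≤ 1 := (sq_le_one_iff_abs_le_one τi).2 hτi
  have htj2 : τj ^ 2 ≤ 1 := (sq_le_one_iff_abs_le_one τj).2 hτj
  have hti2' : 0 ≤ τi ^ 2 := sq_nonneg τi
  have htj2' : 0 ≤ τj ^ 2 := sq_nonneg τj
  have hti4 : τi ^ 4 ≤ 1 := by
    have h : τi ^ 4 = (τi ^ 2) ^ 2 := by ring
    rw [h]; exact pow_le_one₀ hti2' hti2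
  have htj4 : τj ^ 4 ≤ 1 := by
    have h : τj ^ 4 = (τj ^ 2) ^ 2 := by ring
    rw [h]; exact pow_le_one₀ htj2' htj2
  have hti4' : 0 ≤ τi ^ 4 := by positivity
  have htj4' : 0 ≤ τj ^ 4 := by positivity
  have hAi1' : Ai ≤ 1 := by linarith
  have hAj1' : Aj ≤ 1 := by linarith
  -- the products P = x τi, R = y τj
  have hP1 : τi * x ≤ 1 - s := mul_le_of_bounds τi x (1 - s) hi1 hi2 (by linarith) hx2
  have hP2 : (-τi) * x ≤ 1 - s := mul_le_of_bounds (-τi) x (1 - s) (by linarith) (by linarith)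
    (by linarith) hx2
  have hR1 : τj * y ≤ s := mul_le_of_bounds τj y s hj1 hj2 hy1 hy2
  have hR2 : (-τj) * y ≤ s := mul_le_of_bounds (-τj) y s (by linarith) (by linarith) hy1 hy2
  have hpp1 : τi * τj ≤ 1 := mul_le_of_bounds τi τj 1 hi1 hi2 hj1 hj2
  have hpp2 : (-τi) * τj ≤ 1 := mul_le_of_bounds (-τi) τj 1 (by linarith) (by linarith) hj1 hj2
  -- new names
  obtain ⟨s1, hs1def⟩ : ∃ s1, s1 = s - 1 / 1000 * x * τi := ⟨_, rfl⟩
  obtain ⟨s2, hs2def⟩ : ∃ s2, s2 = 1 - s + 1 / 1000 * y * τj := ⟨_, rfl⟩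
  rw [← hs1def] at h1 h2 h5
  rw [← hs2def] at h3 h4 h6
  obtain ⟨Δ, hΔ⟩ : ∃ Δ, Δ = y * τj - x * τi := ⟨_, rfl⟩
  have hΔ1 : Δ ≤ 1 := by rw [hΔ]; linarith
  have hsum : s1 + s2 = 1 + 1 / 1000 * Δ := by rw [hs1def, hs2def, hΔ]; ring
  have hs1lo : 1 / 2 < s1 := by linarith
  have hs2lo : 1 / 2 < s2 := by linarith
  have hs1hi : s1 < 1 / 2 + 1 / 1000 * Δ := by linarith
  have hs2hi : s2 < 1 / 2 + 1 / 1000 * Δ := by linarith
  have hs1le : s1 ≤ 1 := by linarith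
  have hs2le : s2 ≤ 1 := by linarith
  have hΔpos : (1 / 1000 : ℝ) ^ 2 * ((τi ^ 2 + τi ^ 4) / 4 + (τj ^ 2 + τj ^ 4) / 4 + 2 * (1 / 200))
      < 1 / 1000 * Δ := by linarith
  -- the errors e1, e2
  obtain ⟨e1, he1⟩ : ∃ e1, e1 = y - 1 / 1000 * x * Ai - τi * s1 := ⟨_, rfl⟩
  obtain ⟨e2, he2⟩ : ∃ e2, e2 = x + 1 / 1000 * y * Aj - τj * s2 := ⟨_, rfl⟩
  have he1lo : -(1 / 4000000) ≤ e1 := by rw [he1]; linarith
  have he1hi : e1 ≤ 1 / 4000000 := by rw [he1]; linarith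
  have he2lo : -(1 / 4000000) ≤ e2 := by rw [he2]; linarith
  have he2hi : e2 ≤ 1 / 4000000 := by rw [he2]; linarith
  -- the main identity
  have hid : Δ = (τi * τj) * (s1 - s2) + 1 / 1000 * ((x * τj) * Ai + (y * τi) * Aj)
      + τj * e1 + (-τi) * e2 := by
    rw [hΔ, he1, he2]; ring
  have hT1 : (τi * τj) * (s1 - s2) ≤ 1 / 1000 * Δ :=
    mul_le_of_bounds (τi * τj) (s1 - s2) (1 / 1000 * Δ) (by linarith) hpp1 (by linarith)
      (by linarith)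
  have hT3 : τj * e1 ≤ 1 / 4000000 := mul_le_of_bounds τj e1 _ hj1 hj2 he1lo he1hi
  have hT4 : (-τi) * e2 ≤ 1 / 4000000 :=
    mul_le_of_bounds (-τi) e2 _ (by linarith) (by linarith) he2lo he2hi
  have hT3' : τj * e2 ≤ 1 / 4000000 := mul_le_of_bounds τj e2 _ hj1 hj2 he2lo he2hi
  have hT4' : τi * e1 ≤ 1 / 4000000 := mul_le_of_bounds τi e1 _ hi1 hi2 he1lo he1hi
  -- bound for x τj
  have hxτj : x * τj ≤ τj ^ 2 / 2 + 2 / 1000 + 1 / 4000000 := by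
    have e : x * τj = τj ^ 2 * s2 + 1 / 1000 * ((-(τj * y)) * Aj) + τj * e2 := by
      rw [he2]; ring
    have a1 : τj ^ 2 * s2 ≤ τj ^ 2 * (1 / 2 + 1 / 1000) :=
      mul_le_mul_of_nonneg_left (by linarith) htj2'
    have a2 : (-(τj * y)) * Aj ≤ 1 :=
      mul_le_of_bounds (-(τj * y)) Aj 1 (by linarith) (by linarith) (by linarith) hAj1'
    rw [e]; linarith
  have hyτi : y * τi ≤ τi ^ 2 / 2 + 2 / 1000 + 1 / 4000000 := by
    have e : y * τi = τi ^ 2 * s1 + 1 / 1000 * ((τi * x) * Ai) + τi * e1 := by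
      rw [he1]; ring
    have a1 : τi ^ 2 * s1 ≤ τi ^ 2 * (1 / 2 + 1 / 1000) :=
      mul_le_mul_of_nonneg_left (by linarith) hti2'
    have a2 : (τi * x) * Ai ≤ 1 :=
      mul_le_of_bounds (τi * x) Ai 1 (by linarith) (by linarith) (by linarith) hAi1'
    rw [e]; linarith
  have hU1 : (x * τj) * Ai ≤ τj ^ 2 * (1 + τi ^ 2) / 4 + 2 / 1000 + 1 / 4000000 := by
    have b1 : (x * τj) * Ai ≤ (τj ^ 2 / 2 + 2 / 1000 + 1 / 4000000) * Ai :=
      mul_le_mul_of_nonneg_right hxτj hAi0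
    have b2 : (τj ^ 2 / 2 + 2 / 1000 + 1 / 4000000) * Ai
        ≤ (τj ^ 2 / 2 + 2 / 1000 + 1 / 4000000) * ((1 + τi ^ 2) / 2) :=
      mul_le_mul_of_nonneg_left hAi1 (by positivity)
    linarith
  have hU2 : (y * τi) * Aj ≤ τi ^ 2 * (1 + τj ^ 2) / 4 + 2 / 1000 + 1 / 4000000 := by
    have b1 : (y * τi) * Aj ≤ (τi ^ 2 / 2 + 2 / 1000 + 1 / 4000000) * Aj :=
      mul_le_mul_of_nonneg_right hyτi hAj0
    have b2 : (τi ^ 2 / 2 + 2 / 1000 + 1 / 4000000) * Aj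
        ≤ (τi ^ 2 / 2 + 2 / 1000 + 1 / 4000000) * ((1 + τj ^ 2) / 2) :=
      mul_le_mul_of_nonneg_left hAj1 (by positivity)
    linarith
  have hcross : 2 * (τi ^ 2 * τj ^ 2) ≤ τi ^ 4 + τj ^ 4 := by
    linarith [two_mul_le_add_sq (τi ^ 2) (τj ^ 2)]
  linarith

/-! ### the grid -/

lemma cov_tt_zero : tt 0 = -1 := by simp [tt]

lemma cov_tt_NN : tt NN = 1 := by
  unfold tt NN dd; norm_num

lemma cov_tt_succ (i : ℕ) : tt (i + 1) = tt i + dd := by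
  unfold tt; push_cast; ring

lemma cov_tt_eq (i : ℕ) : tt i = tau i - dd / 2 := by
  unfold tau; ring

lemma cov_tt_succ_eq (i : ℕ) : tt (i + 1) = tau i + dd / 2 := by
  rw [cov_tt_succ]; unfold tau; ring

lemma cov_abs_tau_le (i : ℕ) (hi : i < NN) : |tau i| ≤ 1 := by
  have h1 : (0 : ℝ) ≤ (i : ℝ) := Nat.cast_nonneg i
  have h2 : (i : ℝ) + 1 ≤ 4000000 := by
    have h : i + 1 ≤ NN := hi
    have h' : ((i + 1 : ℕ) : ℝ) ≤ ((NN : ℕ) : ℝ) := by exact_mod_cast h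
    have h'' : ((NN : ℕ) : ℝ) = 4000000 := by unfold NN; norm_num
    rw [h''] at h'
    push_cast at h'
    exact h'
  rw [abs_le]
  unfold tau tt dd
  constructor <;> linarith

lemma cov_AA_eq (i : ℕ) : AA i = (1 + tau i ^ 2 - dd ^ 2 / 4) / 2 := by
  unfold AA
  rw [cov_tt_succ_eq, cov_tt_eq]; ring

lemma cov_AA_nonneg (i : ℕ) : 0 ≤ AA i := by
  rw [cov_AA_eq]
  have h : (0 : ℝ) ≤ tau i ^ 2 := sq_nonneg _
  unfold dd
  linarith

lemma cov_AA_le (i : ℕ) : AA i ≤ (1 + tau i ^ 2) / 2 := by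
  rw [cov_AA_eq]
  unfold dd
  linarith

/-- discrete intermediate value theorem on the grid -/
lemma cov_exists_sector (F : ℝ → ℝ) (h0 : 0 ≤ F (tt 0)) (hN : F (tt NN) ≤ 0) :
    ∃ i < NN, 0 ≤ F (tt i) ∧ F (tt (i + 1)) ≤ 0 := by
  classical
  have hNN : NN = 3999999 + 1 := by unfold NN; norm_num
  have hex : ∃ k, F (tt (k + 1)) ≤ 0 := ⟨3999999, by rw [← hNN]; exact hN⟩
  refine ⟨Nat.find hex, ?_, ?_, Nat.find_spec hex⟩
  · have h : Nat.find hex ≤ 3999999 := Nat.find_min' hex (by rw [← hNN]; exact hN)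
    omega
  · rcases Nat.eq_zero_or_pos (Nat.find hex) with h | h
    · rw [h]; exact h0
    · have h' := Nat.find_min hex (m := Nat.find hex - 1) (by omega)
      have e : Nat.find hex - 1 + 1 = Nat.find hex := by omega
      rw [e] at h'
      exact le_of_lt (not_le.1 h')

/-- **Arithmetic core of the explicit cover**: every point `(x, y, √2 s)` of the tetrahedron
(`|x| ≤ 1 - s`, `|y| ≤ s`) satisfies the membership condition of one of the `2 NN` sectors. -/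
theorem cover_arith (x y s : ℝ) (hx : |x| ≤ 1 - s) (hy : |y| ≤ s) :
    (∃ i < NN, LowerCond i x y s) ∨ (∃ j < NN, UpperCond j x y s) := by
  obtain ⟨hx1, hx2⟩ := abs_le.1 hx
  obtain ⟨hy1, hy2⟩ := abs_le.1 hy
  obtain ⟨i, hi, hFi, hFi'⟩ := cov_exists_sector (fun t => y - t * s - cc * x * (1 - t ^ 2) / 2)
    (by rw [cov_tt_zero]; norm_num; linarith) (by rw [cov_tt_NN]; norm_num; linarith)
  obtain ⟨j, hj, hGj, hGj'⟩ :=
    cov_exists_sector (fun t => x - t * (1 - s) + cc * y * (1 - t ^ 2) / 2)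
    (by rw [cov_tt_zero]; norm_num; linarith) (by rw [cov_tt_NN]; norm_num; linarith)
  -- the sector inequalities
  have hL1 : tt i * (s - cc * x * tau i) ≤ y - cc * x * AA i := by
    have e : y - cc * x * AA i - tt i * (s - cc * x * tau i)
        = y - tt i * s - cc * x * (1 - tt i ^ 2) / 2 := by
      rw [cov_AA_eq, cov_tt_eq]; ring
    have h : 0 ≤ y - tt i * s - cc * x * (1 - tt i ^ 2) / 2 := hFi
    linarith
  have hL2 : y - cc * x * AA i ≤ tt (i + 1) * (s - cc * x * tau i) := by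
    have e : y - cc * x * AA i - tt (i + 1) * (s - cc * x * tau i)
        = y - tt (i + 1) * s - cc * x * (1 - tt (i + 1) ^ 2) / 2 := by
      rw [cov_AA_eq, cov_tt_succ_eq]; ring
    have h : y - tt (i + 1) * s - cc * x * (1 - tt (i + 1) ^ 2) / 2 ≤ 0 := hFi'
    linarith
  have hU1 : tt j * (1 - s + cc * y * tau j) ≤ x + cc * y * AA j := by
    have e : x + cc * y * AA j - tt j * (1 - s + cc * y * tau j)
        = x - tt j * (1 - s) + cc * y * (1 - tt j ^ 2) / 2 := by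
      rw [cov_AA_eq, cov_tt_eq]; ring
    have h : 0 ≤ x - tt j * (1 - s) + cc * y * (1 - tt j ^ 2) / 2 := hGj
    linarith
  have hU2 : x + cc * y * AA j ≤ tt (j + 1) * (1 - s + cc * y * tau j) := by
    have e : x + cc * y * AA j - tt (j + 1) * (1 - s + cc * y * tau j)
        = x - tt (j + 1) * (1 - s) + cc * y * (1 - tt (j + 1) ^ 2) / 2 := by
      rw [cov_AA_eq, cov_tt_succ_eq]; ring
    have h : x - tt (j + 1) * (1 - s) + cc * y * (1 - tt (j + 1) ^ 2) / 2 ≤ 0 := hGj'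
    linarith
  -- nonnegativity of the heights
  have hdd : (0 : ℝ) < dd := by unfold dd; norm_num
  have hL0 : 0 ≤ s - cc * x * tau i := by
    have h : 0 ≤ dd * (s - cc * x * tau i) := by
      have e : dd * (s - cc * x * tau i)
          = tt (i + 1) * (s - cc * x * tau i) - tt i * (s - cc * x * tau i) := by
        rw [cov_tt_succ]; ring
      rw [e]; linarith
    exact nonneg_of_mul_nonneg_right h hdd
  have hU0 : 0 ≤ 1 - s + cc * y * tau j := by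
    have h : 0 ≤ dd * (1 - s + cc * y * tau j) := by
      have e : dd * (1 - s + cc * y * tau j)
          = tt (j + 1) * (1 - s + cc * y * tau j) - tt j * (1 - s + cc * y * tau j) := by
        rw [cov_tt_succ]; ring
      rw [e]; linarith
    exact nonneg_of_mul_nonneg_right h hdd
  by_cases h5 : s - cc * x * tau i ≤ RR i
  · exact Or.inl ⟨i, hi, hL0, h5, hL1, hL2⟩
  by_cases h6 : 1 - s + cc * y * tau j ≤ RR j
  · exact Or.inr ⟨j, hj, hU0, h6, hU1, hU2⟩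
  exfalso
  rw [not_le] at h5 h6
  rw [cov_tt_eq] at hL1 hU1
  rw [cov_tt_succ_eq] at hL2 hU2
  exact cover_contra cc dd ee rfl rfl rfl (tau i) (tau j) (AA i) (AA j) x y s hx hy
    (cov_abs_tau_le i hi) (cov_abs_tau_le j hj) (cov_AA_nonneg i) (cov_AA_le i)
    (cov_AA_nonneg j) (cov_AA_le j) hL1 hL2 hU1 hU2 h5 h6

end Crest.Agent.Helper1
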