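import Crest.Agent.Helper1.Integrals
import Crest.Prelude.Def_TruncExpWeight

set_option autoImplicit false

open MeasureTheory Set Filter
open scoped Topology

namespace Crest.Agent.Helper1

/-- `ω`-convolution -/
noncomputable def cv (K : ℝ → ℝ) (y : ℝ) : ℝ := ∫ s in Ioi (0:ℝ), om s * K (y - s)

lemma conv_T {K : ℝ → ℝ} (hK : BM K) (b v : ℝ) : T b (cv K) v = cv (T b K) v := by
  unfold T cv
  have h1 : ∀ x : ℝ, (∫ s in Ioi (0:ℝ), om s * K (v + b * x - s)) * Real.exp (-x)
      = ∫ s in Ioi (0:ℝ), om s * K (v + b * x - s) * Real.exp (-x) := by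
    intro x; rw [integral_mul_const]
  simp_rw [h1]
  rw [integral_integral_swap]
  · refine integral_congr_ae (Eventually.of_forall (fun s => ?_))
    show ∫ x in Ioi (0:ℝ), om s * K (v + b * x - s) * Real.exp (-x)
      = om s * ∫ x in Ioi (0:ℝ), K (v - s + b * x) * Real.exp (-x)
    rw [← integral_const_mul]
    refine integral_congr_ae (Eventually.of_forall (fun x => ?_))
    show om s * K (v + b * x - s) * Real.exp (-x) = om s * (K (v - s + b * x) * Real.exp (-x))
    rw [show v + b * x - s = v - s + b * x by ring]; ring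
  · have hdom : Integrable (fun p : ℝ × ℝ => Real.exp (-p.1) * |om p.2|)
        ((volume.restrict (Ioi (0:ℝ))).prod (volume.restrict (Ioi (0:ℝ)))) :=
      Integrable.mul_prod (integrableOn_exp_neg_Ioi 0) (integrableOn_om 0 le_rfl).abs
    refine Integrable.mono' hdom ?_ ?_
    · have hm : Measurable (fun p : ℝ × ℝ => om p.2 * K (v + b * p.1 - p.2) * Real.exp (-p.1)) := by
        have h1 : Measurable (fun p : ℝ × ℝ => om p.2) :=
          continuous_om.measurable.comp measurable_snd
        have h2 : Measurable (fun p : ℝ × ℝ => K (v + b * p.1 - p.2)) :=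
          hK.meas.comp (by fun_prop)
        exact (h1.mul h2).mul (by fun_prop)
      exact hm.aestronglyMeasurable
    · refine Eventually.of_forall (fun p => ?_)
      show ‖om p.2 * K (v + b * p.1 - p.2) * Real.exp (-p.1)‖ ≤ Real.exp (-p.1) * |om p.2|
      have h0 := hK.nonneg (v + b * p.1 - p.2)
      have h1 := hK.le_one (v + b * p.1 - p.2)
      have he := Real.exp_pos (-p.1)
      rw [Real.norm_eq_abs, abs_mul, abs_mul, abs_of_nonneg h0, abs_of_pos he]
      have := abs_nonneg (om p.2)
      nlinarith [mul_nonneg this he.le]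

lemma conv_TN {K : ℝ → ℝ} (hK : BM K) :
    ∀ (N : ℕ) (a : Fin N → ℝ), TN N a (cv K) = cv (TN N a K) := by
  intro N
  induction N generalizing K with
  | zero => intro a; rfl
  | succ n ih =>
    intro a
    show TN n (Fin.tail a) (T (a 0) (cv K)) = cv (TN n (Fin.tail a) (T (a 0) K))
    have : T (a 0) (cv K) = cv (T (a 0) K) := by funext v; exact conv_T hK (a 0) v
    rw [this]
    exact ih (hK.T (a 0)) (Fin.tail a)

lemma T_integral {φ : ℝ → ℝ} (hm : Measurable φ) (hi : Integrable φ) (b : ℝ) :
    Integrable (T b φ) ∧ ∫ v, T b φ v = ∫ v, φ v := by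
  have hprod : Integrable (Function.uncurry (fun (v x : ℝ) => φ (v + b * x) * Real.exp (-x)))
      (volume.prod (volume.restrict (Ioi (0:ℝ)))) := by
    rw [integrable_prod_iff']
    · constructor
      · refine Eventually.of_forall (fun x => ?_)
        have := (hi.comp_add_right (b * x)).mul_const (Real.exp (-x))
        exact this
      · have : ∀ x : ℝ, ∫ v, ‖Function.uncurry (fun (v x : ℝ) => φ (v + b * x) * Real.exp (-x)) (v, x)‖
            = (∫ v, ‖φ v‖) * Real.exp (-x) := by
          intro x
          simp only [Function.uncurry_apply_pair, norm_mul, Real.norm_eq_abs,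
            abs_of_pos (Real.exp_pos _)]
          rw [integral_mul_const]
          congr 1
          exact integral_add_right_eq_self (fun v => |φ v|) (b * x)
        simp_rw [this]
        exact (integrableOn_exp_neg_Ioi 0).const_mul _
    · have hm2 : Measurable (fun p : ℝ × ℝ => φ (p.1 + b * p.2) * Real.exp (-p.2)) :=
        (hm.comp (by fun_prop)).mul (by fun_prop)
      exact hm2.aestronglyMeasurable
  constructor
  · exact hprod.integral_prod_left
  · unfold T
    rw [integral_integral_swap hprod]
    have : ∀ x : ℝ, ∫ v, φ (v + b * x) * Real.exp (-x) = (∫ v, φ v) * Real.exp (-x) := by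
      intro x
      rw [integral_mul_const]
      congr 1
      exact integral_add_right_eq_self φ (b * x)
    simp_rw [this]
    rw [integral_const_mul, integral_exp_neg_Ioi_zero, mul_one]

lemma one_sub_trunc_eq (y : ℝ) : 1 - Crest.AlgGeometry.truncExpWeight y = cv hv y := by
  unfold cv Crest.AlgGeometry.truncExpWeight
  split_ifs with hy
  · have : ∀ s ∈ Ioi (0:ℝ), om s * hv (y - s) = 0 := by
      intro s hs
      have : ¬ (0 ≤ y - s) := by
        rw [not_le]; have := mem_Ioi.1 hs; linarith
      simp [hv, this]
    rw [setIntegral_congr_fun measurableSet_Ioi this]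
    simp
  · have hy : 0 < y := not_le.1 hy
    have : ∀ s ∈ Ioi (0:ℝ), om s * hv (y - s) = (Iic y).indicator om s := by
      intro s _
      by_cases hs : s ≤ y
      · have : 0 ≤ y - s := by linarith
        simp [hv, this, hs]
      · have : ¬ (0 ≤ y - s) := by rw [not_le]; rw [not_le] at hs; linarith
        simp [hv, this, hs]
    rw [setIntegral_congr_fun measurableSet_Ioi this, setIntegral_indicator measurableSet_Iic]
    have hinter : Ioi (0:ℝ) ∩ Iic y = Ioc 0 y := rfl
    rw [hinter, ← intervalIntegral.integral_of_le hy.le,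
      ← intervalIntegral.integral_Ioi_sub_Ioi (integrableOn_om 0 le_rfl) hy.le,
      integral_om 0 le_rfl, integral_om y hy.le]
    simp
    ring

end Crest.Agent.Helper1
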