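import Crest.Agent.Helper1.Fubini

set_option autoImplicit false

open MeasureTheory Set Filter
open scoped Topology

namespace Crest.Agent.Helper1

lemma T_sub {φ₁ φ₂ : ℝ → ℝ} (h1 : BM φ₁) (h2 : BM φ₂) (b v : ℝ) :
    T b (fun y => φ₁ y - φ₂ y) v = T b φ₁ v - T b φ₂ v := by
  unfold T
  rw [← integral_sub (h1.integrableOn b v) (h2.integrableOn b v)]
  refine integral_congr_ae (Eventually.of_forall (fun x => ?_))
  show (φ₁ (v + b * x) - φ₂ (v + b * x)) * Real.exp (-x)
    = φ₁ (v + b * x) * Real.exp (-x) - φ₂ (v + b * x) * Real.exp (-x)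
  ring

/-- `y`-form of `T` for `b > 0` -/
lemma T_eq_of_pos {b : ℝ} (hb : 0 < b) (G : ℝ → ℝ) (v : ℝ) :
    T b G v = b⁻¹ * Real.exp (v / b) * ∫ y in Ioi v, G y * Real.exp (-(y / b)) := by
  unfold T
  have h1 : ∫ x in Ioi (0:ℝ), G (v + b * x) * Real.exp (-(b * x / b))
      = b⁻¹ * ∫ z in Ioi (0:ℝ), G (v + z) * Real.exp (-(z / b)) := by
    have := integral_comp_mul_left_Ioi (fun z => G (v + z) * Real.exp (-(z / b))) 0 hb
    simpa only [mul_zero, smul_eq_mul] using this
  have h2 : ∫ z in Ioi (0:ℝ), G (z + v) * Real.exp (-((z + v - v) / b))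
      = ∫ y in Ioi v, G y * Real.exp (-((y - v) / b)) := by
    have := integral_Ioi_comp_add (fun y => G y * Real.exp (-((y - v) / b))) 0 v
    simpa only [zero_add] using this
  have e1 : ∀ x : ℝ, G (v + b * x) * Real.exp (-x)
      = G (v + b * x) * Real.exp (-(b * x / b)) := by
    intro x; rw [mul_div_cancel_left₀ _ hb.ne']
  have e2 : ∀ z : ℝ, G (v + z) * Real.exp (-(z / b))
      = G (z + v) * Real.exp (-((z + v - v) / b)) := by
    intro z; rw [add_comm v z, add_sub_cancel_right]
  have e3 : ∀ y : ℝ, G y * Real.exp (-((y - v) / b))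
      = Real.exp (v / b) * (G y * Real.exp (-(y / b))) := by
    intro y
    rw [show -((y - v) / b) = v / b + -(y / b) by ring, Real.exp_add]; ring
  simp_rw [e1]
  rw [h1]
  simp_rw [e2]
  rw [h2]
  simp_rw [e3]
  rw [integral_const_mul]
  ring

lemma hasDerivAt_T_pos {b : ℝ} (hb : 0 < b) {G : ℝ → ℝ} (hGc : Continuous G)
    (hG0 : ∀ y, 0 ≤ G y) (hG1 : ∀ y, G y ≤ 1) (v : ℝ) :
    HasDerivAt (T b G) ((T b G v - G v) / b) v := by
  set j : ℝ → ℝ := fun y => G y * Real.exp (-(y / b)) with hj
  have hjc : Continuous j := hGc.mul (by fun_prop)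
  have hjint : ∀ u : ℝ, IntegrableOn j (Ioi u) := by
    intro u
    have hexp : IntegrableOn (fun y : ℝ => Real.exp (-(y / b))) (Ioi u) := by
      have := exp_neg_integrableOn_Ioi u (b := b⁻¹) (inv_pos.2 hb)
      refine this.congr_fun (fun y _ => ?_) measurableSet_Ioi
      show Real.exp (-b⁻¹ * y) = Real.exp (-(y / b))
      congr 1; field_simp
    refine Integrable.mono' hexp hjc.aestronglyMeasurable ?_
    refine Eventually.of_forall (fun y => ?_)
    show ‖G y * Real.exp (-(y / b))‖ ≤ Real.exp (-(y / b))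
    rw [Real.norm_eq_abs, abs_of_nonneg (mul_nonneg (hG0 y) (Real.exp_pos _).le)]
    have := Real.exp_pos (-(y / b)); nlinarith [hG0 y, hG1 y]
  set J : ℝ → ℝ := fun u => ∫ y in Ioi u, j y with hJ
  have hJd : HasDerivAt J (-(j v)) v := by
    have heq : J = fun u => J v - ∫ y in v..u, j y := by
      funext u
      show (∫ y in Ioi u, j y) = (∫ y in Ioi v, j y) - ∫ y in v..u, j y
      rw [← intervalIntegral.integral_Ioi_sub_Ioi' (hjint v) (hjint u)]; ring
    rw [heq]
    have := (hjc.integral_hasStrictDerivAt v v).hasDerivAt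
    exact ((hasDerivAt_const v (J v)).sub this).congr_deriv (by ring)
  have hT : T b G = fun u => b⁻¹ * Real.exp (u / b) * J u := by
    funext u; exact T_eq_of_pos hb G u
  have hexp : HasDerivAt (fun u : ℝ => Real.exp (u / b)) (Real.exp (v / b) * b⁻¹) v := by
    have := ((hasDerivAt_id' v).div_const b).exp
    exact this.congr_deriv (by rw [one_div])
  have hprod := (hexp.const_mul b⁻¹).mul hJd
  have hexpmul : Real.exp (v / b) * Real.exp (-(v / b)) = 1 := by
    rw [← Real.exp_add]; simp
  have hTv : T b G v = b⁻¹ * Real.exp (v / b) * J v := T_eq_of_pos hb G v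
  rw [hT]
  refine hprod.congr_deriv ?_
  show b⁻¹ * (Real.exp (v / b) * b⁻¹) * J v + b⁻¹ * Real.exp (v / b) * -(G v * Real.exp (-(v / b)))
    = (b⁻¹ * Real.exp (v / b) * J v - G v) / b
  linear_combination (-b⁻¹ * G v) * hexpmul

lemma T_reflect (b : ℝ) (G : ℝ → ℝ) (v : ℝ) : T b G v = T (-b) (fun y => G (-y)) (-v) := by
  unfold T
  refine integral_congr_ae (Eventually.of_forall (fun x => ?_))
  show G (v + b * x) * Real.exp (-x) = G (-(-v + -b * x)) * Real.exp (-x)
  congr 2; ring

lemma hasDerivAt_T {b : ℝ} (hb : b ≠ 0) {G : ℝ → ℝ} (hGc : Continuous G)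
    (hG0 : ∀ y, 0 ≤ G y) (hG1 : ∀ y, G y ≤ 1) (v : ℝ) :
    HasDerivAt (T b G) ((T b G v - G v) / b) v := by
  rcases lt_or_gt_of_ne hb with hneg | hpos
  · have hpos : 0 < -b := by linarith
    have h := hasDerivAt_T_pos hpos (G := fun y => G (-y)) (hGc.comp continuous_neg)
      (fun y => hG0 _) (fun y => hG1 _) (-v)
    have hc := h.comp v (hasDerivAt_neg v)
    have heq : T b G = (T (-b) fun y => G (-y)) ∘ Neg.neg := by
      funext u; exact T_reflect b G u
    have hv : T b G v = T (-b) (fun y => G (-y)) (-v) := T_reflect b G v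
    rw [heq]
    refine hc.congr_deriv ?_
    show (T (-b) (fun y => G (-y)) (-v) - G (- -v)) / -b * -1
      = (T (-b) (fun y => G (-y)) (-v) - G v) / b
    rw [neg_neg]
    field_simp
  · exact hasDerivAt_T_pos hpos hGc hG0 hG1 v

/-- three-point concavity inequality -/
lemma concave_three {L : ℝ → ℝ} (hL : ConcaveOn ℝ univ L) {x y z : ℝ} (hxy : x ≤ y)
    (hyz : y ≤ z) : (z - y) * L x + (y - x) * L z ≤ (z - x) * L y := by
  rcases eq_or_lt_of_le (hxy.trans hyz) with hxz | hxz
  · have hyx : y = x := le_antisymm (hxz ▸ hyz) hxy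
    subst hyx; subst hxz; simp
  · have hzx : 0 < z - x := sub_pos.2 hxz
    have h := hL.2 (mem_univ x) (mem_univ z)
      (div_nonneg (sub_nonneg.2 hyz) hzx.le) (div_nonneg (sub_nonneg.2 hxy) hzx.le)
      (by field_simp; ring)
    have hy : (z - y) / (z - x) * x + (y - x) / (z - x) * z = y := by field_simp; ring
    simp only [smul_eq_mul] at h
    rw [hy] at h
    have e : (z - y) / (z - x) * L x + (y - x) / (z - x) * L z
        = ((z - y) * L x + (y - x) * L z) / (z - x) := by ring
    rw [e, div_le_iff₀ hzx] at h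
    linarith

lemma concave_four {L : ℝ → ℝ} (hL : ConcaveOn ℝ univ L) {r x d : ℝ} (hrx : r ≤ x)
    (hd : 0 ≤ d) : L r + L (x + d) ≤ L x + L (r + d) := by
  have h1 := concave_three hL hrx (by linarith : x ≤ x + d)
  have h2 := concave_three hL (by linarith : r ≤ r + d) (by linarith : r + d ≤ x + d)
  rcases eq_or_lt_of_le (by linarith : 0 ≤ x + d - r) with h0 | h0
  · have hd0 : d = 0 := by linarith
    have hxr : x = r := by linarith
    subst hd0; subst hxr; simp
  · have : (x + d - r) * (L r + L (x + d)) ≤ (x + d - r) * (L x + L (r + d)) := by nlinarith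
    exact le_of_mul_le_mul_left this h0

/-- the class of tail profiles preserved by the operators `T b` -/
structure Good (G : ℝ → ℝ) (m : ℝ) : Prop where
  cont : Continuous G
  pos : ∀ v, 0 < G v
  le_one : ∀ v, G v ≤ 1
  mono : Monotone G
  conc : ConcaveOn ℝ Set.univ (fun v => Real.log (G v))
  intg : Integrable (fun v => G v - hv v)
  mean : ∫ v, (G v - hv v) = m

lemma Good.bm {G : ℝ → ℝ} {m : ℝ} (h : Good G m) : BM G :=
  ⟨h.cont.measurable, fun v => (h.pos v).le, h.le_one⟩

lemma Good.four {G : ℝ → ℝ} {m : ℝ} (h : Good G m) {r x d : ℝ} (hrx : r ≤ x) (hd : 0 ≤ d) :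
    G r * G (x + d) ≤ G x * G (r + d) := by
  have h4 : Real.log (G r) + Real.log (G (x + d)) ≤ Real.log (G x) + Real.log (G (r + d)) :=
    concave_four h.conc hrx hd
  have := Real.exp_le_exp.2 h4
  rwa [Real.exp_add, Real.exp_add, Real.exp_log (h.pos _), Real.exp_log (h.pos _),
    Real.exp_log (h.pos _), Real.exp_log (h.pos _)] at this

lemma Good.key_pos {G : ℝ → ℝ} {m : ℝ} (h : Good G m) {b : ℝ} (hb : 0 < b) {r x : ℝ}
    (hrx : r ≤ x) : G r * T b G x ≤ G x * T b G r := by
  unfold T
  rw [← integral_const_mul, ← integral_const_mul]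
  refine setIntegral_mono_on ((h.bm.integrableOn b x).const_mul _)
    ((h.bm.integrableOn b r).const_mul _) measurableSet_Ioi (fun z hz => ?_)
  have h4 := h.four hrx (mul_nonneg hb.le (le_of_lt hz))
  have he := Real.exp_pos (-z)
  nlinarith [mul_le_mul_of_nonneg_right h4 he.le]

lemma Good.key_neg {G : ℝ → ℝ} {m : ℝ} (h : Good G m) {b : ℝ} (hb : b < 0) {r x : ℝ}
    (hrx : r ≤ x) : G x * T b G r ≤ G r * T b G x := by
  unfold T
  rw [← integral_const_mul, ← integral_const_mul]
  refine setIntegral_mono_on ((h.bm.integrableOn b r).const_mul _)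
    ((h.bm.integrableOn b x).const_mul _) measurableSet_Ioi (fun z hz => ?_)
  have hz0 : 0 < z := hz
  have h4 := h.four (r := r + b * z) (x := x + b * z) (d := -(b * z)) (by linarith)
    (by nlinarith)
  rw [show x + b * z + -(b * z) = x by ring, show r + b * z + -(b * z) = r by ring] at h4
  have he := Real.exp_pos (-z)
  nlinarith [mul_le_mul_of_nonneg_right h4 he.le]

lemma Good.step {G : ℝ → ℝ} {m : ℝ} (h : Good G m) (b : ℝ) : Good (T b G) (m + b) := by
  by_cases hb : b = 0
  · subst hb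
    have : T 0 G = G := by funext v; exact T_zero G v
    rw [this, add_zero]; exact h
  have hder : ∀ v, HasDerivAt (T b G) ((T b G v - G v) / b) v :=
    fun v => hasDerivAt_T hb h.cont (fun y => (h.pos y).le) h.le_one v
  have hpos : ∀ v, 0 < T b G v := by
    intro v
    unfold T
    exact integral_Ioi_pos (h.bm.integrableOn b v)
      (fun x => mul_nonneg (h.pos _).le (Real.exp_pos _).le) 0
      (fun x _ => mul_pos (h.pos _) (Real.exp_pos _))
  have hcont : Continuous (T b G) :=
    continuous_iff_continuousAt.2 (fun v => (hder v).continuousAt)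
  have hsub : (fun v => T b G v - hv v)
      = fun v => T b (fun y => G y - hv y) v + (T b hv v - hv v) := by
    funext v; rw [T_sub h.bm bm_hv]; ring
  have hTi := T_integral (φ := fun y => G y - hv y) (h.cont.measurable.sub measurable_hv)
    h.intg b
  have hH := T_hv_sub_hv b
  refine ⟨hcont, hpos, fun v => T_le_one h.bm b v, ?_, ?_, ?_, ?_⟩
  · intro v₁ v₂ hv12
    unfold T
    refine setIntegral_mono (h.bm.integrableOn b v₁) (h.bm.integrableOn b v₂) (fun x => ?_)
    exact mul_le_mul_of_nonneg_right (h.mono (by linarith)) (Real.exp_pos _).le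
  · have hlogder : ∀ v, HasDerivAt (fun v => Real.log (T b G v))
        ((T b G v - G v) / b / T b G v) v :=
      fun v => (hder v).log (hpos v).ne'
    have hderiv : deriv (fun v => Real.log (T b G v))
        = fun v => (T b G v - G v) / b / T b G v :=
      funext (fun v => (hlogder v).deriv)
    refine AntitoneOn.concaveOn_of_deriv convex_univ ?_ ?_ ?_
    · exact (continuous_iff_continuousAt.2 (fun v => (hlogder v).continuousAt)).continuousOn
    · exact fun v _ => (hlogder v).differentiableAt.differentiableWithinAt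
    · rw [hderiv]
      intro r _ x _ hrx
      show (T b G x - G x) / b / T b G x ≤ (T b G r - G r) / b / T b G r
      rcases lt_or_gt_of_ne hb with hneg | hbpos
      · have key := h.key_neg hneg hrx
        have e : ∀ u, (T b G u - G u) / b / T b G u = (G u - T b G u) / (-b * T b G u) := by
          intro u
          rw [div_div, ← neg_div_neg_eq, neg_sub, neg_mul]
        rw [e, e, div_le_div_iff₀ (mul_pos (neg_pos.2 hneg) (hpos x))
          (mul_pos (neg_pos.2 hneg) (hpos r))]
        nlinarith [mul_nonneg (neg_pos.2 hneg).le (sub_nonneg.2 key)]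
      · have key := h.key_pos hbpos hrx
        rw [div_div, div_div, div_le_div_iff₀ (mul_pos hbpos (hpos x)) (mul_pos hbpos (hpos r))]
        nlinarith [mul_nonneg hbpos.le (sub_nonneg.2 key)]
  · rw [hsub]; exact hTi.1.add hH.1
  · rw [hsub, integral_add hTi.1 hH.1, hTi.2, hH.2, h.mean]

lemma good_base {a : ℝ} (ha : 0 < a) : Good (T a hv) a := by
  have hT : T a hv = Gexp a := funext (T_hv_pos ha)
  have hlog : ∀ v, Real.log (Gexp a v) = min 0 (v / a) := by
    intro v; unfold Gexp
    rcases le_total 0 (v / a) with h | h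
    · rw [min_eq_left (Real.one_le_exp h), Real.log_one, min_eq_left h]
    · rw [min_eq_right (Real.exp_le_one_iff.2 h), Real.log_exp, min_eq_right h]
  refine ⟨?_, ?_, ?_, ?_, ?_, (T_hv_sub_hv a).1, (T_hv_sub_hv a).2⟩
  · rw [hT]; unfold Gexp; fun_prop
  · intro v; rw [hT]; exact lt_min one_pos (Real.exp_pos _)
  · intro v; rw [hT]; exact min_le_left _ _
  · rw [hT]; intro v₁ v₂ h
    exact min_le_min le_rfl (Real.exp_le_exp.2 (div_le_div_of_nonneg_right h ha.le))
  · rw [hT]
    have : (fun v => Real.log (Gexp a v)) = fun v => min 0 (v / a) := funext hlog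
    rw [this]
    have h1 : ConcaveOn ℝ univ (fun _ : ℝ => (0:ℝ)) := concaveOn_const 0 convex_univ
    have h2 : ConcaveOn ℝ univ (fun v : ℝ => v / a) := by
      have h3 := (concaveOn_id (𝕜 := ℝ) (convex_univ (E := ℝ))).smul (inv_nonneg.2 ha.le)
      have e : (fun v : ℝ => v / a) = fun x => a⁻¹ • id x := by
        funext v; simp [div_eq_inv_mul]
      rw [e]; exact h3
    exact h1.inf h2

lemma Good.exists_lt_one {G : ℝ → ℝ} {m : ℝ} (h : Good G m) : ∃ y, G y < 1 := by
  by_contra hcon
  have hG1 : ∀ y, G y = 1 := fun y => le_antisymm (h.le_one y) (not_lt.1 (fun hlt => hcon ⟨y, hlt⟩))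
  have h1 : IntegrableOn (fun v => G v - hv v) (Iio 0) := h.intg.integrableOn
  have h2 : IntegrableOn (fun _ : ℝ => (1:ℝ)) (Iio 0) := by
    refine h1.congr_fun (fun v hvm => ?_) measurableSet_Iio
    have : ¬ (0 ≤ v) := not_le.2 hvm
    simp [hG1 v, hv, this]
  rcases (integrableOn_const_iff).1 h2 with h3 | h3
  · simp at h3
  · simp at h3

lemma Good.T_lt_one_of_neg {G : ℝ → ℝ} {m : ℝ} (h : Good G m) {b : ℝ} (hb : b < 0) (v : ℝ) :
    T b G v < 1 := by
  obtain ⟨y₀, hy₀⟩ := h.exists_lt_one
  have h1 : 0 < T b (fun y => 1 - G y) v := by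
    unfold T
    refine integral_Ioi_pos (h.bm.one_sub.integrableOn b v)
      (fun x => mul_nonneg (by linarith [h.le_one (v + b * x)]) (Real.exp_pos _).le)
      ((v - y₀) / (-b)) (fun x hx => ?_)
    have hlt : v + b * x < y₀ := by
      rw [div_lt_iff₀ (neg_pos.2 hb)] at hx; linarith
    have := h.mono hlt.le
    exact mul_pos (by linarith) (Real.exp_pos _)
  rw [T_one_sub h.bm] at h1
  linarith

lemma Good.T_lt_one {G : ℝ → ℝ} {m : ℝ} (h : Good G m) (h1 : ∀ v, G v < 1) (b v : ℝ) :
    T b G v < 1 := by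
  have h2 : 0 < T b (fun y => 1 - G y) v := by
    unfold T
    exact integral_Ioi_pos (h.bm.one_sub.integrableOn b v)
      (fun x => mul_nonneg (by linarith [h.le_one (v + b * x)]) (Real.exp_pos _).le) 0
      (fun x _ => mul_pos (by linarith [h1 (v + b * x)]) (Real.exp_pos _))
  rw [T_one_sub h.bm] at h2
  linarith

lemma Good.strictMono {G : ℝ → ℝ} {m : ℝ} (h : Good G m) (h1 : ∀ v, G v < 1) :
    StrictMono G := by
  intro v₁ v₂ hv12
  by_contra hcon
  have heq : G v₂ = G v₁ := le_antisymm (not_lt.1 hcon) (h.mono hv12.le)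
  have hconst : ∀ v, v₂ ≤ v → G v = G v₂ := by
    intro v hv2
    refine le_antisymm ?_ (h.mono hv2)
    have h3 : (v - v₂) * Real.log (G v₁) + (v₂ - v₁) * Real.log (G v)
        ≤ (v - v₁) * Real.log (G v₂) := concave_three h.conc hv12.le hv2
    rw [← heq] at h3
    have h4 : (v₂ - v₁) * Real.log (G v) ≤ (v₂ - v₁) * Real.log (G v₂) := by linarith
    have h5 : Real.log (G v) ≤ Real.log (G v₂) := le_of_mul_le_mul_left h4 (sub_pos.2 hv12)
    exact (Real.log_le_log_iff (h.pos _) (h.pos _)).1 h5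
  have hI : IntegrableOn (fun v => G v - hv v) (Ioi (max v₂ 0)) := h.intg.integrableOn
  have hI2 : IntegrableOn (fun _ : ℝ => G v₂ - 1) (Ioi (max v₂ 0)) := by
    refine hI.congr_fun (fun v hvm => ?_) measurableSet_Ioi
    have hv2 : v₂ ≤ v := (le_max_left _ _).trans (le_of_lt hvm)
    have hv0 : 0 ≤ v := (le_max_right _ _).trans (le_of_lt hvm)
    simp [hconst v hv2, hv, hv0]
  rcases (integrableOn_const_iff).1 hI2 with h3 | h3
  · have : G v₂ - 1 = 0 := by simpa using h3
    linarith [h1 v₂]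
  · simp at h3

end Crest.Agent.Helper1
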