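import Crest.Agent.Helper1.Basic

set_option autoImplicit false

open MeasureTheory Set Filter
open scoped Topology

namespace Crest.Agent.Helper1

/-- translation of improper integrals -/
lemma integral_Ioi_comp_add (φ : ℝ → ℝ) (a d : ℝ) :
    ∫ z in Ioi a, φ (z + d) = ∫ y in Ioi (a + d), φ y := by
  have h := (measurePreserving_add_right volume d).setIntegral_preimage_emb
    (measurableEmbedding_addRight d) φ (Ioi (a + d))
  have hpre : (fun x : ℝ => x + d) ⁻¹' Ioi (a + d) = Ioi a := by
    ext x; simp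
  rw [hpre] at h
  exact h

lemma hasDerivAt_xexp (a : ℝ) (ha : 0 < a) (y : ℝ) :
    HasDerivAt (fun y => -(y / a + 1 / a ^ 2) * Real.exp (-a * y)) (y * Real.exp (-a * y)) y := by
  have h1 : HasDerivAt (fun y : ℝ => -(y / a + 1 / a ^ 2)) (-(1 / a)) y := by
    have h := (((hasDerivAt_id' y).div_const a).add_const (1 / a ^ 2)).neg
    exact h
  have h2 : HasDerivAt (fun y : ℝ => Real.exp (-a * y)) (Real.exp (-a * y) * (-a)) y := by
    have h := ((hasDerivAt_id' y).const_mul (-a)).exp
    exact h.congr_deriv (by simp)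
  refine (h1.mul h2).congr_deriv ?_
  field_simp
  ring

lemma tendsto_xexp (a : ℝ) (ha : 0 < a) :
    Tendsto (fun y => -(y / a + 1 / a ^ 2) * Real.exp (-a * y)) atTop (𝓝 0) := by
  have hlin : Tendsto (fun y : ℝ => a * y) atTop atTop := tendsto_id.const_mul_atTop ha
  have h1 := (Real.tendsto_pow_mul_exp_neg_atTop_nhds_zero 1).comp hlin
  have h0 := (Real.tendsto_pow_mul_exp_neg_atTop_nhds_zero 0).comp hlin
  have := (h1.add h0).const_mul (-(1 / a ^ 2))
  simp only [mul_zero, add_zero] at this
  refine this.congr (fun y => ?_)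
  simp only [Function.comp, pow_one, pow_zero, one_mul]
  field_simp

lemma integrableOn_xexp (a : ℝ) (ha : 0 < a) (u : ℝ) (hu : 0 ≤ u) :
    IntegrableOn (fun y => y * Real.exp (-a * y)) (Ioi u) :=
  integrableOn_Ioi_deriv_of_nonneg' (fun x _ => hasDerivAt_xexp a ha x)
    (fun x hx => mul_nonneg (hu.trans (le_of_lt hx)) (Real.exp_pos _).le) (tendsto_xexp a ha)

lemma integral_xexp (a : ℝ) (ha : 0 < a) (u : ℝ) (hu : 0 ≤ u) :
    ∫ y in Ioi u, y * Real.exp (-a * y) = (u / a + 1 / a ^ 2) * Real.exp (-a * u) := by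
  rw [integral_Ioi_of_hasDerivAt_of_tendsto' (fun x _ => hasDerivAt_xexp a ha x)
    (integrableOn_xexp a ha u hu) (tendsto_xexp a ha)]
  ring

lemma hasDerivAt_x2exp (y : ℝ) :
    HasDerivAt (fun y => -(y ^ 2 + 2 * y + 2) * Real.exp (-y)) (y ^ 2 * Real.exp (-y)) y := by
  have h1 : HasDerivAt (fun y : ℝ => -(y ^ 2 + 2 * y + 2)) (-(2 * y + 2)) y := by
    have h := ((((hasDerivAt_pow 2 y).add ((hasDerivAt_id' y).const_mul 2)).add_const 2)).neg
    exact h.congr_deriv (by simp)
  have h2 : HasDerivAt (fun y : ℝ => Real.exp (-y)) (-Real.exp (-y)) y := by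
    have h := (hasDerivAt_neg y).exp
    exact h.congr_deriv (by simp)
  refine (h1.mul h2).congr_deriv ?_
  ring

lemma tendsto_x2exp :
    Tendsto (fun y => -(y ^ 2 + 2 * y + 2) * Real.exp (-y)) atTop (𝓝 0) := by
  have h2 := Real.tendsto_pow_mul_exp_neg_atTop_nhds_zero 2
  have h1 := Real.tendsto_pow_mul_exp_neg_atTop_nhds_zero 1
  have h0 := Real.tendsto_pow_mul_exp_neg_atTop_nhds_zero 0
  have := ((h2.add (h1.const_mul 2)).add (h0.const_mul 2)).neg
  simp only [mul_zero, add_zero, neg_zero] at this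
  refine this.congr (fun y => ?_)
  simp only [pow_one, pow_zero, one_mul]
  ring

lemma integrableOn_x2exp : IntegrableOn (fun y => y ^ 2 * Real.exp (-y)) (Ioi (0:ℝ)) :=
  integrableOn_Ioi_deriv_of_nonneg' (fun x _ => hasDerivAt_x2exp x)
    (fun x _ => mul_nonneg (sq_nonneg x) (Real.exp_pos _).le) tendsto_x2exp

lemma integral_x2exp : ∫ y in Ioi (0:ℝ), y ^ 2 * Real.exp (-y) = 2 := by
  rw [integral_Ioi_of_hasDerivAt_of_tendsto' (fun x _ => hasDerivAt_x2exp x)
    integrableOn_x2exp tendsto_x2exp]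
  simp

/-- the weight `ω(y) = y e^{-y}` -/
noncomputable def om (y : ℝ) : ℝ := y * Real.exp (-y)

lemma om_eq (y : ℝ) : om y = y * Real.exp (-1 * y) := by
  unfold om; rw [neg_one_mul]

lemma integrableOn_om (u : ℝ) (hu : 0 ≤ u) : IntegrableOn om (Ioi u) := by
  have := integrableOn_xexp 1 one_pos u hu
  refine this.congr_fun (fun y _ => (om_eq y).symm) measurableSet_Ioi

lemma integral_om (u : ℝ) (hu : 0 ≤ u) : ∫ y in Ioi u, om y = (u + 1) * Real.exp (-u) := by
  have := integral_xexp 1 one_pos u hu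
  rw [setIntegral_congr_fun measurableSet_Ioi (fun y _ => om_eq y), this]
  simp

lemma om_nonneg {y : ℝ} (hy : 0 ≤ y) : 0 ≤ om y := mul_nonneg hy (Real.exp_pos _).le

lemma om_le (y : ℝ) : om y ≤ Real.exp (-1) := by
  unfold om
  have h := Real.add_one_le_exp (y - 1)
  have : Real.exp (-y) * Real.exp (y - 1) = Real.exp (-1) := by
    rw [← Real.exp_add]; congr 1; ring
  rw [← this]
  have he := Real.exp_pos (-y)
  nlinarith

lemma continuous_om : Continuous om := by unfold om; fun_prop

/-- positivity of integrals of nonnegative functions which are eventually positive -/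
lemma integral_Ioi_pos {f : ℝ → ℝ} (hf : IntegrableOn f (Ioi 0)) (h0 : ∀ x, 0 ≤ f x) (x₀ : ℝ)
    (hpos : ∀ x, x₀ < x → 0 < f x) : 0 < ∫ x in Ioi (0:ℝ), f x := by
  rw [integral_pos_iff_support_of_nonneg h0 hf]
  have hsub : Ioi (max x₀ 0) ⊆ Function.support f := by
    intro x hx
    have : x₀ < x := lt_of_le_of_lt (le_max_left _ _) (mem_Ioi.1 hx)
    exact (hpos x this).ne'
  refine lt_of_lt_of_le ?_ (measure_mono hsub)
  rw [Measure.restrict_apply measurableSet_Ioi]
  have : Ioi (max x₀ 0) ∩ Ioi (0:ℝ) = Ioi (max x₀ 0) := by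
    apply inter_eq_left.2
    intro x hx
    exact mem_Ioi.2 (lt_of_le_of_lt (le_max_right _ _) (mem_Ioi.1 hx))
  rw [this, Real.volume_Ioi]
  exact ENNReal.zero_lt_top

/-- comparison profile -/
noncomputable def Gexp (t v : ℝ) : ℝ := min 1 (Real.exp (v / t))

lemma T_hv_pos {b : ℝ} (hb : 0 < b) (v : ℝ) : T b hv v = Gexp b v := by
  unfold T Gexp
  by_cases hv0 : 0 ≤ v
  · have : ∀ x ∈ Ioi (0:ℝ), hv (v + b * x) * Real.exp (-x) = Real.exp (-x) := by
      intro x hx
      have : 0 ≤ v + b * x := by have := mul_pos hb hx; linarith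
      simp [hv, this]
    rw [setIntegral_congr_fun measurableSet_Ioi this, integral_exp_neg_Ioi_zero]
    rw [min_eq_left]
    exact Real.one_le_exp (div_nonneg hv0 hb.le)
  · have hv0 : v < 0 := not_le.1 hv0
    have : ∀ x ∈ Ioi (0:ℝ), hv (v + b * x) * Real.exp (-x)
        = (Ici (-v / b)).indicator (fun x => Real.exp (-x)) x := by
      intro x hx
      by_cases hx2 : -v / b ≤ x
      · have : 0 ≤ v + b * x := by
          rw [div_le_iff₀ hb] at hx2; linarith
        simp [hv, this, hx2]
      · have : ¬ (0 ≤ v + b * x) := by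
          rw [div_le_iff₀ hb, not_le] at hx2; rw [not_le]; linarith
        simp [hv, this, hx2]
    rw [setIntegral_congr_fun measurableSet_Ioi this, setIntegral_indicator measurableSet_Ici]
    have hinter : Ioi (0:ℝ) ∩ Ici (-v / b) = Ici (-v / b) := by
      apply inter_eq_right.2
      intro x hx
      exact lt_of_lt_of_le (div_pos (by linarith) hb) hx
    rw [hinter, integral_Ici_eq_integral_Ioi, integral_exp_neg_Ioi]
    rw [min_eq_right]
    · congr 1; ring
    · rw [Real.exp_le_one_iff]; exact div_nonpos_of_nonpos_of_nonneg hv0.le hb.le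

lemma T_hv_neg {b : ℝ} (hb : b < 0) (v : ℝ) :
    T b hv v = if 0 ≤ v then 1 - Real.exp (v / b) else 0 := by
  unfold T
  split_ifs with hv0
  · have : ∀ x ∈ Ioi (0:ℝ), hv (v + b * x) * Real.exp (-x)
        = (Iic (-v / b)).indicator (fun x => Real.exp (-x)) x := by
      intro x hx
      by_cases hx2 : x ≤ -v / b
      · have : 0 ≤ v + b * x := by
          rw [le_div_iff_of_neg hb] at hx2; linarith
        simp [hv, this, hx2]
      · have : ¬ (0 ≤ v + b * x) := by
          rw [le_div_iff_of_neg hb, not_le] at hx2; rw [not_le]; linarith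
        simp [hv, this, hx2]
    rw [setIntegral_congr_fun measurableSet_Ioi this, setIntegral_indicator measurableSet_Iic]
    have hx1 : 0 ≤ -v / b := div_nonneg_of_nonpos (by linarith) hb.le
    have hinter : Ioi (0:ℝ) ∩ Iic (-v / b) = Ioc 0 (-v / b) := rfl
    rw [hinter, ← intervalIntegral.integral_of_le hx1,
      ← intervalIntegral.integral_Ioi_sub_Ioi (integrableOn_exp_neg_Ioi 0) hx1,
      integral_exp_neg_Ioi, integral_exp_neg_Ioi]
    simp only [neg_zero, Real.exp_zero]
    congr 2; ring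
  · have hv0 : v < 0 := not_le.1 hv0
    have : ∀ x ∈ Ioi (0:ℝ), hv (v + b * x) * Real.exp (-x) = 0 := by
      intro x hx
      have : ¬ (0 ≤ v + b * x) := by
        have := mul_neg_of_neg_of_pos hb hx; rw [not_le]; linarith
      simp [hv, this]
    rw [setIntegral_congr_fun measurableSet_Ioi this]
    simp

lemma T_hv_sub_hv (b : ℝ) :
    Integrable (fun v => T b hv v - hv v) ∧ ∫ v, (T b hv v - hv v) = b := by
  rcases lt_trichotomy b 0 with hb | hb | hb
  · have heq : (fun v => T b hv v - hv v)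
        = (Ici (0:ℝ)).indicator (fun v => -Real.exp ((1 / b) * v)) := by
      funext v
      rw [T_hv_neg hb]
      by_cases hv0 : 0 ≤ v
      · simp [hv, hv0, div_eq_inv_mul]
      · simp [hv, hv0]
    have hint : IntegrableOn (fun v => -Real.exp ((1 / b) * v)) (Ici (0:ℝ)) := by
      rw [integrableOn_Ici_iff_integrableOn_Ioi]
      exact (integrableOn_exp_mul_Ioi (a := 1 / b) (by simpa using hb) 0).neg
    rw [heq]
    refine ⟨(integrable_indicator_iff measurableSet_Ici).2 hint, ?_⟩
    rw [integral_indicator measurableSet_Ici, integral_Ici_eq_integral_Ioi, integral_neg,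
      integral_exp_mul_Ioi (a := 1 / b) (by simpa using hb) 0]
    simp
  · subst hb
    have heq : (fun v => T 0 hv v - hv v) = fun _ => (0:ℝ) := by
      funext v; rw [T_zero]; ring
    rw [heq]
    exact ⟨integrable_zero _ _ _, by simp⟩
  · have heq : (fun v => T b hv v - hv v)
        = (Iio (0:ℝ)).indicator (fun v => Real.exp ((1 / b) * v)) := by
      funext v
      rw [T_hv_pos hb]
      unfold Gexp
      by_cases hv0 : 0 ≤ v
      · have : (1:ℝ) ≤ Real.exp (v / b) := Real.one_le_exp (div_nonneg hv0 hb.le)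
        simp [hv, hv0, min_eq_left this]
      · have hv0' : v < 0 := not_le.1 hv0
        have : Real.exp (v / b) ≤ 1 := by
          rw [Real.exp_le_one_iff]; exact div_nonpos_of_nonpos_of_nonneg hv0'.le hb.le
        rw [min_eq_right this, indicator_of_mem (show v ∈ Iio (0:ℝ) from hv0')]
        simp only [hv, if_neg hv0, sub_zero]
        congr 1; ring
    have hint : IntegrableOn (fun v => Real.exp ((1 / b) * v)) (Iio (0:ℝ)) :=
      (integrableOn_exp_mul_Iic (a := 1 / b) (by positivity) 0).mono_set Iio_subset_Iic_self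
    rw [heq]
    refine ⟨(integrable_indicator_iff measurableSet_Iio).2 hint, ?_⟩
    rw [integral_indicator measurableSet_Iio, ← integral_Iic_eq_integral_Iio,
      integral_exp_mul_Iic (a := 1 / b) (by positivity) 0]
    simp

end Crest.Agent.Helper1
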