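import Crest.Agent.Helper1.Basic

set_option autoImplicit false

open MeasureTheory Set Filter
open scoped Topology

namespace Crest.Agent.Helper1

/-- positive orthant -/
abbrev orth (N : ℕ) : Set (Fin N → ℝ) := Set.pi Set.univ (fun _ : Fin N => Set.Ioi (0 : ℝ))

lemma integrableOn_exp_neg_sum (N : ℕ) :
    IntegrableOn (fun x : Fin N → ℝ => Real.exp (-∑ i, x i)) (orth N) := by
  unfold IntegrableOn
  rw [volume_pi, Measure.restrict_pi_pi]
  have : (fun x : Fin N → ℝ => Real.exp (-∑ i, x i)) = fun x => ∏ i, Real.exp (-(x i)) := by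
    funext x; rw [← Real.exp_sum, Finset.sum_neg_distrib]
  rw [this]
  exact Integrable.fintype_prod (fun _ => integrableOn_exp_neg_Ioi 0)

lemma BM.integrableOn_orth {φ : ℝ → ℝ} (h : BM φ) (N : ℕ) (a : Fin N → ℝ) (v : ℝ) :
    IntegrableOn (fun x : Fin N → ℝ => φ (v + ∑ i, a i * x i) * Real.exp (-∑ i, x i))
      (orth N) := by
  refine Integrable.mono' (integrableOn_exp_neg_sum N) ?_ ?_
  · have h1 : Measurable (fun x : Fin N → ℝ => v + ∑ i, a i * x i) :=
      (by fun_prop : Continuous fun x : Fin N → ℝ => v + ∑ i, a i * x i).measurable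
    have h2 : Measurable (fun x : Fin N → ℝ => Real.exp (-∑ i, x i)) :=
      (by fun_prop : Continuous fun x : Fin N → ℝ => Real.exp (-∑ i, x i)).measurable
    exact ((h.meas.comp h1).mul h2).aestronglyMeasurable
  · refine Filter.Eventually.of_forall (fun x => ?_)
    have h0 := h.nonneg (v + ∑ i, a i * x i)
    have h1 := h.le_one (v + ∑ i, a i * x i)
    have he := Real.exp_pos (-∑ i, x i)
    rw [Real.norm_eq_abs, abs_of_nonneg (by positivity)]
    nlinarith

lemma pfsa_symm_apply {n : ℕ} (i₀ : Fin (n+1)) (p : ℝ × (Fin n → ℝ)) :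
    (MeasurableEquiv.piFinSuccAbove (fun _ : Fin (n+1) => ℝ) i₀).symm p
      = Fin.insertNth i₀ p.1 p.2 := rfl

lemma link_pivot {n : ℕ} (i₀ : Fin (n+1)) (a : Fin (n+1) → ℝ) {φ : ℝ → ℝ} (hφ : BM φ) (v : ℝ) :
    ∫ x in orth (n+1), φ (v + ∑ i, a i * x i) * Real.exp (-∑ i, x i)
      = ∫ x in orth n, T (a i₀) φ (v + ∑ j, a (i₀.succAbove j) * x j) * Real.exp (-∑ j, x j) := by
  set f : (Fin (n+1) → ℝ) → ℝ := fun x => φ (v + ∑ i, a i * x i) * Real.exp (-∑ i, x i) with hf
  have hfint : IntegrableOn f (orth (n+1)) := hφ.integrableOn_orth (n+1) a v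
  set e := MeasurableEquiv.piFinSuccAbove (fun _ : Fin (n+1) => ℝ) i₀ with he
  have hmp : MeasurePreserving e.symm volume volume :=
    (volume_preserving_piFinSuccAbove (fun _ : Fin (n+1) => ℝ) i₀).symm
  have hpre : e.symm ⁻¹' orth (n+1) = Ioi (0:ℝ) ×ˢ orth n := by
    ext p
    rw [mem_preimage, he, pfsa_symm_apply]
    simp only [mem_prod, Set.mem_pi, mem_univ, true_imp_iff, mem_Ioi]
    rw [Fin.forall_iff_succAbove i₀]
    simp
  have h1 := hmp.setIntegral_preimage_emb e.symm.measurableEmbedding f (orth (n+1))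
  rw [← h1, hpre]
  have hint2 : IntegrableOn (fun p => f (e.symm p)) (Ioi (0:ℝ) ×ˢ orth n) := by
    rw [← hpre]
    exact (hmp.integrableOn_comp_preimage e.symm.measurableEmbedding).2 hfint
  rw [Measure.volume_eq_prod, ← Measure.prod_restrict]
  rw [integral_prod_symm _ (by rw [Measure.prod_restrict]; exact hint2)]
  refine integral_congr_ae (Eventually.of_forall (fun x' => ?_))
  show ∫ x₀ in Ioi (0:ℝ), f (e.symm (x₀, x'))
    = T (a i₀) φ (v + ∑ j, a (i₀.succAbove j) * x' j) * Real.exp (-∑ j, x' j)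
  unfold T
  rw [← integral_mul_const]
  refine integral_congr_ae (Eventually.of_forall (fun x₀ => ?_))
  show f (e.symm (x₀, x')) = φ (v + ∑ j, a (i₀.succAbove j) * x' j + a i₀ * x₀) * Real.exp (-x₀)
    * Real.exp (-∑ j, x' j)
  rw [hf, he, pfsa_symm_apply]
  simp only [Fin.sum_univ_succAbove _ i₀, Fin.insertNth_apply_same, Fin.insertNth_apply_succAbove]
  rw [mul_assoc, ← Real.exp_add]
  congr 2 <;> ring

lemma link {φ : ℝ → ℝ} (hφ : BM φ) : ∀ (N : ℕ) (a : Fin N → ℝ) (v : ℝ),
    ∫ x in orth N, φ (v + ∑ i, a i * x i) * Real.exp (-∑ i, x i) = TN N a φ v := by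
  intro N
  induction N generalizing φ with
  | zero =>
    intro a v
    have h1 : (volume : Measure (Fin 0 → ℝ)) (univ.pi fun _ => Ioi (0:ℝ)) = 1 := by
      rw [volume_pi_pi]; simp
    simp [TN, orth, Measure.real, h1]
  | succ n ih =>
    intro a v
    rw [link_pivot 0 a hφ v]
    have := ih (hφ.T (a 0)) (Fin.tail a) v
    simpa [Fin.tail, TN] using this

end Crest.Agent.Helper1
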