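import Crest.Agent.Helper1.TheoremA
import Crest.Agent.Helper1.Link

set_option autoImplicit false

open MeasureTheory Set Filter
open scoped Topology
open Crest.AlgGeometry

namespace Crest.Agent.Helper1

lemma trunc_nonneg (y : ℝ) : 0 ≤ truncExpWeight y := by
  unfold truncExpWeight
  split_ifs with h
  · norm_num
  · have : 0 < y := not_le.1 h
    positivity

lemma trunc_le_one (y : ℝ) : truncExpWeight y ≤ 1 := by
  unfold truncExpWeight
  split_ifs with h
  · exact le_rfl
  · have h1 := Real.add_one_le_exp y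
    have h2 : Real.exp y * Real.exp (-y) = 1 := by rw [← Real.exp_add]; simp
    have h3 := Real.exp_pos (-y)
    nlinarith

lemma measurable_trunc : Measurable truncExpWeight := by
  unfold truncExpWeight
  exact Measurable.ite measurableSet_Iic measurable_const
    (by fun_prop : Continuous fun y : ℝ => (1 + y) * Real.exp (-y)).measurable

lemma bm_trunc : BM truncExpWeight := ⟨measurable_trunc, trunc_nonneg, trunc_le_one⟩

lemma TN_const (k : ℝ) : ∀ (N : ℕ) (a : Fin N → ℝ) (v : ℝ), TN N a (fun _ => k) v = k := by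
  intro N
  induction N with
  | zero => intro a v; rfl
  | succ n ih =>
    intro a v
    show TN n (Fin.tail a) (T (a 0) (fun _ => k)) v = k
    have : T (a 0) (fun _ => k) = fun _ => k := funext (fun y => T_const (a 0) k y)
    rw [this]; exact ih (Fin.tail a) v

lemma good_TN : ∀ (n : ℕ) (a : Fin n → ℝ) {G : ℝ → ℝ} {m : ℝ}, Good G m →
    Good (TN n a G) (m + ∑ i, a i) := by
  intro n
  induction n with
  | zero => intro a G m h; simpa [TN] using h
  | succ k ih =>
    intro a G m h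
    have h2 := ih (Fin.tail a) (h.step (a 0))
    have e : m + ∑ i, a i = m + a 0 + ∑ i, Fin.tail a i := by
      rw [Fin.sum_univ_succ]; simp [Fin.tail]; ring
    rw [e]; exact h2

lemma TN_lt_one : ∀ (n : ℕ) (a : Fin n → ℝ) {G : ℝ → ℝ} {m : ℝ}, Good G m →
    ((∀ v, G v < 1) ∨ ∃ j, a j < 0) → ∀ v, TN n a G v < 1 := by
  intro n
  induction n with
  | zero =>
    intro a G m h hor v
    rcases hor with h1 | ⟨j, _⟩
    · exact h1 v
    · exact j.elim0
  | succ k ih =>
    intro a G m h hor v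
    show TN k (Fin.tail a) (T (a 0) G) v < 1
    rcases hor with h1 | ⟨j, hj⟩
    · exact ih (Fin.tail a) (h.step (a 0)) (Or.inl (fun v => h.T_lt_one h1 (a 0) v)) v
    · rcases Fin.eq_zero_or_eq_succ j with rfl | ⟨j', rfl⟩
      · exact ih (Fin.tail a) (h.step (a 0)) (Or.inl (fun v => h.T_lt_one_of_neg hj v)) v
      · exact ih (Fin.tail a) (h.step (a 0)) (Or.inr ⟨j', hj⟩) v

lemma trunc_c_le : truncExpWeight (4 / 3) ≤ 1 - kap := by
  unfold truncExpWeight kap
  rw [if_neg (by norm_num)]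
  have h1 : (25:ℝ) / 18 ≤ Real.exp (1 / 3) := by
    have := Real.quadratic_le_exp_of_nonneg (x := 1 / 3) (by norm_num)
    norm_num at this ⊢; linarith
  have h2 : Real.exp (-(1 / 3)) * Real.exp (1 / 3) = 1 := by rw [← Real.exp_add]; simp
  have h3 := Real.exp_pos (-(1 / 3))
  have hx : Real.exp (-(1 / 3)) ≤ 18 / 25 := by nlinarith
  have h4 : Real.exp (-(4 / 3)) = Real.exp (-(1 / 3)) ^ 4 := by
    rw [← Real.exp_nat_mul]; congr 1; norm_num
  rw [h4]
  have h5 : Real.exp (-(1 / 3)) ^ 4 ≤ (18 / 25) ^ 4 := pow_le_pow_left₀ h3.le hx 4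
  norm_num at h5 ⊢
  linarith

/-- the pairing identity -/
lemma T_trunc_eq (b : ℝ) : T b truncExpWeight = fun y => 1 - cv (T b hv) y := by
  have hψ : BM (fun y => 1 - truncExpWeight y) := bm_trunc.one_sub
  have hcv : (fun y => 1 - truncExpWeight y) = cv hv := funext one_sub_trunc_eq
  funext y
  have e : truncExpWeight = fun z => 1 - (1 - truncExpWeight z) := by funext z; ring
  calc T b truncExpWeight y = T b (fun z => 1 - (1 - truncExpWeight z)) y := by rw [← e]
    _ = 1 - T b (fun z => 1 - truncExpWeight z) y := T_one_sub hψ b y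
    _ = 1 - T b (cv hv) y := by rw [hcv]
    _ = 1 - cv (T b hv) y := by rw [conv_T bm_hv]

lemma bm_cv_T (b : ℝ) : BM (cv (T b hv)) := by
  have hψ : BM (fun y => 1 - truncExpWeight y) := bm_trunc.one_sub
  have hcv : (fun y => 1 - truncExpWeight y) = cv hv := funext one_sub_trunc_eq
  have : cv (T b hv) = T b (cv hv) := (funext (fun v => conv_T bm_hv b v)).symm
  rw [this, ← hcv]
  exact hψ.T b

theorem partA (N : ℕ) (a : Fin N → ℝ) (hN : 1 ≤ N) (hsum : ∑ i, a i = 0) :
    ∫ x in orth N, truncExpWeight (4 / 3 + ∑ i, a i * x i) * Real.exp (-∑ i, x i)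
      ≤ 1 - kap := by
  obtain ⟨n, rfl⟩ : ∃ n, N = n + 1 := ⟨N - 1, by omega⟩
  by_cases hzero : ∀ i, a i = 0
  · have h0 : ∀ x : Fin (n+1) → ℝ,
        truncExpWeight (4 / 3 + ∑ i, a i * x i) * Real.exp (-∑ i, x i)
          = (fun _ : ℝ => truncExpWeight (4 / 3)) (0 + ∑ i, a i * x i)
            * Real.exp (-∑ i, x i) := by
      intro x; simp [hzero]
    simp_rw [h0]
    rw [link (φ := fun _ => truncExpWeight (4 / 3))
      ⟨measurable_const, fun _ => trunc_nonneg _, fun _ => trunc_le_one _⟩ (n+1) a 0]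
    rw [TN_const]
    exact trunc_c_le
  · have hpos : ∃ i, 0 < a i := by
      by_contra hcon
      have hle : ∀ i, a i ≤ 0 := fun i => not_lt.1 (fun h => hcon ⟨i, h⟩)
      exact hzero (fun i =>
        (Finset.sum_eq_zero_iff_of_nonpos (fun i _ => hle i)).1 hsum i (Finset.mem_univ i))
    have hneg : ∃ i, a i < 0 := by
      by_contra hcon
      have hge : ∀ i, 0 ≤ a i := fun i => not_lt.1 (fun h => hcon ⟨i, h⟩)
      exact hzero (fun i =>
        (Finset.sum_eq_zero_iff_of_nonneg (fun i _ => hge i)).1 hsum i (Finset.mem_univ i))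
    obtain ⟨i₀, hi₀⟩ := hpos
    obtain ⟨i₁, hi₁⟩ := hneg
    rw [link_pivot i₀ a bm_trunc (4 / 3),
      link (bm_trunc.T (a i₀)) n (fun j => a (i₀.succAbove j)) (4 / 3)]
    rw [T_trunc_eq, TN_one_sub (bm_cv_T (a i₀)), conv_TN (bm_hv.T (a i₀))]
    have hG := good_TN n (fun j => a (i₀.succAbove j)) (good_base hi₀)
    have hsum' : a i₀ + ∑ j, a (i₀.succAbove j) = 0 := by
      rw [← Fin.sum_univ_succAbove a i₀]; exact hsum
    rw [hsum'] at hG
    have hne : i₁ ≠ i₀ := by
      intro h; rw [h] at hi₁; linarith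
    obtain ⟨j₁, hj₁⟩ := Fin.exists_succAbove_eq hne
    have hlt := TN_lt_one n (fun j => a (i₀.succAbove j)) (good_base hi₀)
      (Or.inr ⟨j₁, by show a (i₀.succAbove j₁) < 0; rw [hj₁]; exact hi₁⟩)
    have := hG.kap_le_pairing hlt
    show 1 - cv (TN n (fun j => a (i₀.succAbove j)) (T (a i₀) hv)) (4 / 3) ≤ 1 - kap
    unfold cv
    linarith

end Crest.Agent.Helper1
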