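import Crest.Agent.Helper1.PartA

set_option autoImplicit false

open MeasureTheory Set Filter
open scoped Topology
open Crest.AlgGeometry

namespace Crest.Agent.Helper1

lemma trunc_antitone : Antitone truncExpWeight := by
  intro y₁ y₂ h
  unfold truncExpWeight
  by_cases h2 : y₂ ≤ 0
  · rw [if_pos h2, if_pos (h.trans h2)]
  · rw [if_neg h2]
    have hy2 : 0 < y₂ := not_le.1 h2
    by_cases h1 : y₁ ≤ 0
    · rw [if_pos h1]
      have := trunc_le_one y₂
      unfold truncExpWeight at this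
      rwa [if_neg h2] at this
    · rw [if_neg h1]
      have hy1 : 0 < y₁ := not_le.1 h1
      have hd := Real.add_one_le_exp (y₂ - y₁)
      have he : Real.exp (-y₁) = Real.exp (-y₂) * Real.exp (y₂ - y₁) := by
        rw [← Real.exp_add]; congr 1; ring
      rw [he]
      have hpos := Real.exp_pos (-y₂)
      have h3 : (1 + y₂) ≤ (1 + y₁) * Real.exp (y₂ - y₁) := by
        have : (1 + y₁) * (y₂ - y₁ + 1) ≤ (1 + y₁) * Real.exp (y₂ - y₁) :=
          mul_le_mul_of_nonneg_left hd (by linarith)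
        nlinarith [mul_nonneg hy1.le (sub_nonneg.2 h)]
      calc (1 + y₂) * Real.exp (-y₂) ≤ ((1 + y₁) * Real.exp (y₂ - y₁)) * Real.exp (-y₂) :=
            mul_le_mul_of_nonneg_right h3 hpos.le
        _ = (1 + y₁) * (Real.exp (-y₂) * Real.exp (y₂ - y₁)) := by ring

lemma trunc_lip (y y₀ : ℝ) : truncExpWeight y₀ - |y - y₀| ≤ truncExpWeight y := by
  rcases le_total y y₀ with h | h
  · have := trunc_antitone h
    have := abs_nonneg (y - y₀)
    linarith
  · rw [abs_of_nonneg (sub_nonneg.2 h)]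
    by_cases hy : y ≤ 0
    · have h1 : truncExpWeight y = 1 := by unfold truncExpWeight; rw [if_pos hy]
      have := trunc_le_one y₀
      linarith
    · have hy' : 0 < y := not_le.1 hy
      have hgy : truncExpWeight y = (1 + y) * Real.exp (-y) := by
        unfold truncExpWeight; rw [if_neg hy]
      by_cases hy0 : y₀ ≤ 0
      · have h1 : truncExpWeight y₀ = 1 := by unfold truncExpWeight; rw [if_pos hy0]
        rw [h1, hgy]
        have he := Real.add_one_le_exp (-y)
        have hpos := Real.exp_pos (-y)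
        by_cases hy1 : y ≤ 1
        · have : (1 + y) * (-y + 1) ≤ (1 + y) * Real.exp (-y) :=
            mul_le_mul_of_nonneg_left he (by linarith)
          nlinarith
        · have : 0 ≤ (1 + y) * Real.exp (-y) := by positivity
          linarith
      · have hy0' : 0 < y₀ := not_le.1 hy0
        have hgy0 : truncExpWeight y₀ = (1 + y₀) * Real.exp (-y₀) := by
          unfold truncExpWeight; rw [if_neg hy0]
        have hA1 : (1 + y₀) * Real.exp (-y₀) ≤ 1 := by
          rw [← hgy0]; exact trunc_le_one y₀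
        have hB : -(y - y₀) + 1 ≤ Real.exp (-(y - y₀)) := Real.add_one_le_exp _
        have hBpos := Real.exp_pos (-(y - y₀))
        have hApos := Real.exp_pos (-y₀)
        have he : Real.exp (-y) = Real.exp (-y₀) * Real.exp (-(y - y₀)) := by
          rw [← Real.exp_add]; congr 1; ring
        rw [hgy0, hgy, he]
        have hd : 0 ≤ y - y₀ := sub_nonneg.2 h
        have h1 : 0 ≤ (1 + y₀) * Real.exp (-y₀) := by positivity
        have h2 : (1 + y₀) * Real.exp (-y₀) * (1 - Real.exp (-(y - y₀)))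
            ≤ (1 + y₀) * Real.exp (-y₀) * (y - y₀) :=
          mul_le_mul_of_nonneg_left (by linarith) h1
        have h3 : (1 + y₀) * Real.exp (-y₀) * (y - y₀) ≤ 1 * (y - y₀) :=
          mul_le_mul_of_nonneg_right hA1 hd
        have h4 : 0 ≤ (y - y₀) * (Real.exp (-y₀) * Real.exp (-(y - y₀))) := by positivity
        nlinarith

lemma T_lip (b y y₀ : ℝ) :
    T b truncExpWeight y₀ - |y - y₀| ≤ T b truncExpWeight y := by
  unfold T
  have hi0 := bm_trunc.integrableOn b y₀
  have hi := bm_trunc.integrableOn b y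
  have hc : IntegrableOn (fun x : ℝ => |y - y₀| * Real.exp (-x)) (Ioi 0) :=
    (integrableOn_exp_neg_Ioi 0).const_mul _
  have e : (∫ x in Ioi (0:ℝ), truncExpWeight (y₀ + b * x) * Real.exp (-x)) - |y - y₀|
      = ∫ x in Ioi (0:ℝ), (truncExpWeight (y₀ + b * x) * Real.exp (-x)
          - |y - y₀| * Real.exp (-x)) := by
    rw [integral_sub hi0 hc, integral_const_mul, integral_exp_neg_Ioi_zero, mul_one]
  rw [e]
  refine setIntegral_mono_on (hi0.sub hc) hi measurableSet_Ioi (fun x _ => ?_)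
  have h1 := trunc_lip (y + b * x) (y₀ + b * x)
  rw [show y + b * x - (y₀ + b * x) = y - y₀ by ring] at h1
  have hpos := Real.exp_pos (-x)
  nlinarith [mul_le_mul_of_nonneg_right h1 hpos.le]

lemma lln_step {φ : ℝ → ℝ} (hφ : BM φ) (A m D b : ℝ)
    (h : ∀ y, A - D * (y - m) ^ 2 ≤ φ y) (y : ℝ) :
    (A - D * b ^ 2) - D * (y - (m - b)) ^ 2 ≤ T b φ y := by
  unfold T
  have hq : ∀ x : ℝ, (A - D * (y + b * x - m) ^ 2) * Real.exp (-x)
      = (A - D * (y - m) ^ 2) * Real.exp (-x) - (2 * D * b * (y - m)) * om x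
        - (D * b ^ 2) * (x ^ 2 * Real.exp (-x)) := by
    intro x; unfold om; ring
  have hi1 : IntegrableOn (fun x : ℝ => (A - D * (y - m) ^ 2) * Real.exp (-x)) (Ioi 0) :=
    (integrableOn_exp_neg_Ioi 0).const_mul _
  have hi2 : IntegrableOn (fun x : ℝ => (2 * D * b * (y - m)) * om x) (Ioi 0) :=
    (integrableOn_om 0 le_rfl).const_mul _
  have hi3 : IntegrableOn (fun x : ℝ => (D * b ^ 2) * (x ^ 2 * Real.exp (-x))) (Ioi 0) :=
    integrableOn_x2exp.const_mul _
  have hi12 : IntegrableOn (fun x : ℝ => (A - D * (y - m) ^ 2) * Real.exp (-x)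
      - (2 * D * b * (y - m)) * om x) (Ioi 0) := hi1.sub hi2
  have hval : ∫ x in Ioi (0:ℝ), (A - D * (y + b * x - m) ^ 2) * Real.exp (-x)
      = (A - D * b ^ 2) - D * (y - (m - b)) ^ 2 := by
    simp_rw [hq]
    rw [integral_sub hi12 hi3, integral_sub hi1 hi2, integral_const_mul,
      integral_const_mul, integral_const_mul, integral_exp_neg_Ioi_zero, integral_om 0 le_rfl,
      integral_x2exp]
    simp
    ring
  rw [← hval]
  have hiq : IntegrableOn (fun x : ℝ => (A - D * (y + b * x - m) ^ 2) * Real.exp (-x)) (Ioi 0) := by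
    simp_rw [hq]
    exact hi12.sub hi3
  refine setIntegral_mono_on hiq (hφ.integrableOn b y) measurableSet_Ioi (fun x _ => ?_)
  exact mul_le_mul_of_nonneg_right (h (y + b * x)) (Real.exp_pos _).le

lemma lln (b D : ℝ) : ∀ (n : ℕ) {φ : ℝ → ℝ} (_ : BM φ) (A m : ℝ)
    (_ : ∀ y, A - D * (y - m) ^ 2 ≤ φ y) (v : ℝ),
    A - D * ((v - m + n * b) ^ 2 + n * b ^ 2) ≤ TN n (fun _ => b) φ v := by
  intro n
  induction n with
  | zero =>
    intro φ _ A m h v
    have := h v
    simpa [TN] using this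
  | succ k ih =>
    intro φ hφ A m h v
    show _ ≤ TN k (fun _ => b) (T b φ) v
    have := ih (hφ.T b) (A - D * b ^ 2) (m - b) (lln_step hφ A m D b h) v
    refine le_trans (le_of_eq ?_) this
    push_cast
    ring

lemma T2_value : T 2 truncExpWeight (4 / 3 - 2) = 1 - kap := by
  rw [T_trunc_eq]
  have hT : T 2 hv = Gexp 2 := funext (T_hv_pos (by norm_num))
  rw [hT]
  show 1 - KK 2 (4 / 3 - 2) = 1 - kap
  rw [KK_eq_of_nonpos (by norm_num) (by norm_num)]
  unfold kap
  have : ((4:ℝ) / 3 - 2) / 2 = -(1 / 3) := by norm_num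
  rw [this]
  norm_num
  ring

theorem partB (ε : ℝ) (hε : 0 < ε) : ∃ (N : ℕ) (a : Fin N → ℝ), 1 ≤ N ∧ ∑ i, a i = 0 ∧
    1 - kap - ε
      < ∫ x in orth N, truncExpWeight (4 / 3 + ∑ i, a i * x i) * Real.exp (-∑ i, x i) := by
  obtain ⟨n, hn⟩ := exists_nat_gt (4 / ε ^ 2)
  have hn0 : 0 < (n:ℝ) := lt_trans (by positivity) hn
  set b : ℝ := -2 / n with hb
  refine ⟨n + 1, Fin.cons 2 (fun _ => b), by omega, ?_, ?_⟩
  · rw [Fin.sum_univ_succ]
    simp only [Fin.cons_zero, Fin.cons_succ, Finset.sum_const, Finset.card_univ,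
      Fintype.card_fin, nsmul_eq_mul]
    rw [hb]; field_simp; ring
  · rw [link_pivot 0 _ bm_trunc (4 / 3), link (bm_trunc.T _) n _ (4 / 3)]
    simp only [Fin.cons_zero, Fin.succAbove_zero, Fin.cons_succ]
    have hφ : BM (T 2 truncExpWeight) := bm_trunc.T 2
    have hquad : ∀ y, (T 2 truncExpWeight (4 / 3 - 2) - ε / 2)
        - (1 / (2 * ε)) * (y - (4 / 3 - 2)) ^ 2 ≤ T 2 truncExpWeight y := by
      intro y
      have h1 := T_lip 2 y (4 / 3 - 2)
      have habs : |y - (4 / 3 - 2)| ≤ ε / 2 + (1 / (2 * ε)) * (y - (4 / 3 - 2)) ^ 2 := by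
        have h2 := sq_nonneg (|y - (4 / 3 - 2)| - ε)
        rw [sub_sq, sq_abs] at h2
        have e : (1 / (2 * ε)) * (y - (4 / 3 - 2)) ^ 2 = (y - (4 / 3 - 2)) ^ 2 / (2 * ε) := by
          ring
        rw [e, ← sub_le_iff_le_add', le_div_iff₀ (by positivity)]
        nlinarith
      linarith
    have hl := lln b (1 / (2 * ε)) n hφ _ (4 / 3 - 2) hquad (4 / 3)
    have e1 : (4 / 3 - (4 / 3 - 2) + n * b : ℝ) = 0 := by rw [hb]; field_simp; ring
    have e2 : (n:ℝ) * b ^ 2 = 4 / n := by rw [hb]; field_simp; ring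
    rw [e1, e2, T2_value] at hl
    have hsmall : (1 / (2 * ε)) * (0 ^ 2 + 4 / n) < ε / 2 := by
      have h3 : 4 / ε ^ 2 < (n:ℝ) := hn
      rw [div_lt_iff₀ (by positivity)] at h3
      have e3 : (1 / (2 * ε)) * (0 ^ 2 + 4 / n) = 2 / (ε * n) := by field_simp; ring
      rw [e3, div_lt_iff₀ (by positivity)]
      nlinarith
    linarith

end Crest.Agent.Helper1
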