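import Crest.Agent.Helper1.Compare
import Crest.Agent.Helper1.Good

set_option autoImplicit false

open MeasureTheory Set Filter
open scoped Topology

namespace Crest.Agent.Helper1

/-! ### unimodality of `y e^{-y}` -/

lemma om_mono01 {y y' : ℝ} (h0 : 0 ≤ y) (h : y ≤ y') (h1 : y' ≤ 1) : om y ≤ om y' := by
  unfold om
  have hd := Real.add_one_le_exp (-(y' - y))
  have he : Real.exp (-y') = Real.exp (-y) * Real.exp (-(y' - y)) := by
    rw [← Real.exp_add]; congr 1; ring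
  rw [he]
  have hpos := Real.exp_pos (-y)
  have h2 : y ≤ y' * (1 - (y' - y)) := by
    nlinarith [mul_nonneg (sub_nonneg.2 h) (sub_nonneg.2 h1)]
  have h3 : y' * (1 - (y' - y)) ≤ y' * Real.exp (-(y' - y)) :=
    mul_le_mul_of_nonneg_left (by linarith) (by linarith)
  calc y * Real.exp (-y) ≤ (y' * Real.exp (-(y' - y))) * Real.exp (-y) :=
        mul_le_mul_of_nonneg_right (h2.trans h3) hpos.le
    _ = y' * (Real.exp (-y) * Real.exp (-(y' - y))) := by ring

lemma om_anti1 {y y' : ℝ} (h1 : 1 ≤ y) (h : y ≤ y') : om y' ≤ om y := by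
  unfold om
  have hd := Real.add_one_le_exp (y' - y)
  have he : Real.exp (-y) = Real.exp (-y') * Real.exp (y' - y) := by
    rw [← Real.exp_add]; congr 1; ring
  rw [he]
  have hpos := Real.exp_pos (-y')
  have h2 : y' ≤ y * (1 + (y' - y)) := by
    nlinarith [mul_nonneg (sub_nonneg.2 h1) (sub_nonneg.2 h)]
  have h3 : y * (1 + (y' - y)) ≤ y * Real.exp (y' - y) :=
    mul_le_mul_of_nonneg_left (by linarith) (by linarith)
  calc y' * Real.exp (-y') ≤ (y * Real.exp (y' - y)) * Real.exp (-y') :=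
        mul_le_mul_of_nonneg_right (h2.trans h3) hpos.le
    _ = y * (Real.exp (-y') * Real.exp (y' - y)) := by ring

/-! ### the level-set parametrisation -/

/-- lower crossing point -/
noncomputable def pp (ρ : ℝ) : ℝ := Real.log ρ / (ρ - 1)
/-- upper crossing point -/
noncomputable def qq (ρ : ℝ) : ℝ := ρ * pp ρ

lemma pp_pos {ρ : ℝ} (h : 1 < ρ) : 0 < pp ρ := div_pos (Real.log_pos h) (by linarith)

lemma pp_lt_one {ρ : ℝ} (h : 1 < ρ) : pp ρ < 1 := by
  unfold pp
  rw [div_lt_one (by linarith)]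
  exact Real.log_lt_sub_one_of_pos (by linarith) h.ne'

lemma one_lt_qq {ρ : ℝ} (h : 1 < ρ) : 1 < qq ρ := by
  unfold qq pp
  have hρ : 0 < ρ := by linarith
  rw [← mul_div_assoc, lt_div_iff₀ (by linarith), one_mul]
  have h1 := Real.log_lt_sub_one_of_pos (inv_pos.2 hρ)
    (by intro h1; rw [inv_eq_one] at h1; linarith)
  rw [Real.log_inv] at h1
  have h2 : ρ * (1 - ρ⁻¹) < ρ * Real.log ρ := mul_lt_mul_of_pos_left (by linarith) hρ
  rw [mul_sub, mul_one, mul_inv_cancel₀ hρ.ne'] at h2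
  exact h2

lemma pp_lt_qq {ρ : ℝ} (h : 1 < ρ) : pp ρ < qq ρ := (pp_lt_one h).trans (one_lt_qq h)

lemma om_qq_eq_om_pp {ρ : ℝ} (h : 1 < ρ) : om (qq ρ) = om (pp ρ) := by
  unfold om qq
  have hρ : 0 < ρ := by linarith
  have hlog : (ρ - 1) * pp ρ = Real.log ρ := by
    unfold pp
    have : ρ - 1 ≠ 0 := by linarith
    field_simp
  have : Real.exp (-(ρ * pp ρ)) = Real.exp (-pp ρ) * ρ⁻¹ := by
    rw [show -(ρ * pp ρ) = -pp ρ + -((ρ - 1) * pp ρ) by ring, Real.exp_add, hlog,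
      Real.exp_neg (Real.log ρ), Real.exp_log hρ]
  rw [this]; field_simp

lemma exp_sub_om_le {ρ : ℝ} (h : 1 < ρ) : Real.exp (-1) - om (pp ρ) ≤ (ρ - 1) ^ 2 := by
  have hρ : 0 < ρ := by linarith
  have hp0 := pp_pos h
  have hp1 := pp_lt_one h
  -- 1 - pp ρ ≤ ρ - 1
  have h1 : 1 - ρ⁻¹ ≤ Real.log ρ := Real.one_sub_inv_le_log_of_pos hρ
  have h2 : (ρ - 1) - (ρ - 1) ^ 2 ≤ 1 - ρ⁻¹ := by
    have e : ρ * (1 - ρ⁻¹ - ((ρ - 1) - (ρ - 1) ^ 2)) = (ρ - 1) ^ 3 := by
      field_simp; ring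
    have : 0 ≤ ρ * (1 - ρ⁻¹ - ((ρ - 1) - (ρ - 1) ^ 2)) := by
      rw [e]; have : 0 < ρ - 1 := by linarith
      positivity
    have := nonneg_of_mul_nonneg_right this hρ
    linarith
  have h3 : 1 - (ρ - 1) ≤ pp ρ := by
    unfold pp
    rw [le_div_iff₀ (by linarith)]
    nlinarith
  -- e^{-y} ≥ e^{-1} (2 - y)
  have h4 : Real.exp (-1) * (2 - pp ρ) ≤ Real.exp (-pp ρ) := by
    have := Real.add_one_le_exp (1 - pp ρ)
    have e : Real.exp (-pp ρ) = Real.exp (-1) * Real.exp (1 - pp ρ) := by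
      rw [← Real.exp_add]; congr 1; ring
    rw [e]
    exact mul_le_mul_of_nonneg_left (by linarith) (Real.exp_pos _).le
  have h5 : Real.exp (-1) ≤ 1 := by
    rw [Real.exp_le_one_iff]; norm_num
  have h6 := Real.exp_pos (-1)
  unfold om
  have h7 : pp ρ * (Real.exp (-1) * (2 - pp ρ)) ≤ pp ρ * Real.exp (-pp ρ) :=
    mul_le_mul_of_nonneg_left h4 hp0.le
  have h8 : Real.exp (-1) * (1 - pp ρ) ^ 2 ≤ 1 * (ρ - 1) ^ 2 := by
    have h9 : (1 - pp ρ) ^ 2 ≤ (ρ - 1) ^ 2 := by nlinarith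
    exact mul_le_mul h5 h9 (sq_nonneg _) zero_le_one
  nlinarith

lemma om_pp_sq_le {r : ℝ} (h : 1 < r) : om (pp (r ^ 2)) ≤ 2 / r := by
  have hr : 0 < r := by linarith
  have h1 : 1 < r ^ 2 := by nlinarith
  have hp0 := pp_pos h1
  have h2 : om (pp (r ^ 2)) ≤ pp (r ^ 2) := by
    unfold om
    have : Real.exp (-pp (r ^ 2)) ≤ 1 := by rw [Real.exp_le_one_iff]; linarith
    nlinarith
  have h3 : pp (r ^ 2) ≤ 2 / r := by
    unfold pp
    rw [Real.log_pow, div_le_div_iff₀ (by linarith) hr]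
    have := Real.log_le_sub_one_of_pos hr
    push_cast
    nlinarith
  exact h2.trans h3

/-! ### the chord exponential -/

/-- scale of the chord exponential -/
noncomputable def tch (F : ℝ → ℝ) (p q : ℝ) : ℝ := (q - p) / (Real.log (F p) - Real.log (F q))
/-- location of the chord exponential -/
noncomputable def uch (F : ℝ → ℝ) (p q : ℝ) : ℝ := p + tch F p q * Real.log (F p)

lemma chord_cmp {F : ℝ → ℝ} (hF0 : ∀ y, 0 < F y) (hF1 : ∀ y, F y < 1)
    (hconc : ConcaveOn ℝ univ (fun y => Real.log (F y))) {p q : ℝ} (hpq : p < q)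
    (hD : Real.log (F q) < Real.log (F p)) :
    (∀ y, p ≤ y → y ≤ q → Gexp (tch F p q) (uch F p q - y) ≤ F y) ∧
    (∀ y, (y < p ∨ q < y) → F y ≤ Gexp (tch F p q) (uch F p q - y)) := by
  have hDpos : 0 < Real.log (F p) - Real.log (F q) := sub_pos.2 hD
  have hell : ∀ y, (uch F p q - y) / tch F p q
      = ((q - y) * Real.log (F p) + (y - p) * Real.log (F q)) / (q - p) := by
    intro y
    unfold uch tch
    have h1 : q - p ≠ 0 := (sub_pos.2 hpq).ne'
    have h2 : Real.log (F p) - Real.log (F q) ≠ 0 := hDpos.ne'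
    field_simp
    ring
  constructor
  · intro y hpy hyq
    have h3 : (q - y) * Real.log (F p) + (y - p) * Real.log (F q) ≤ (q - p) * Real.log (F y) :=
      concave_three hconc hpy hyq
    have h4 : (uch F p q - y) / tch F p q ≤ Real.log (F y) := by
      rw [hell, div_le_iff₀ (sub_pos.2 hpq)]; linarith
    calc Gexp (tch F p q) (uch F p q - y) ≤ Real.exp ((uch F p q - y) / tch F p q) :=
          min_le_right _ _
      _ ≤ Real.exp (Real.log (F y)) := Real.exp_le_exp.2 h4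
      _ = F y := Real.exp_log (hF0 y)
  · intro y hy
    have h4 : Real.log (F y) ≤ (uch F p q - y) / tch F p q := by
      rw [hell, le_div_iff₀ (sub_pos.2 hpq)]
      rcases hy with hy | hy
      · have h3 : (q - p) * Real.log (F y) + (p - y) * Real.log (F q)
            ≤ (q - y) * Real.log (F p) := concave_three hconc hy.le hpq.le
        linarith
      · have h3 : (y - q) * Real.log (F p) + (q - p) * Real.log (F y)
            ≤ (y - p) * Real.log (F q) := concave_three hconc hpq.le hy.le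
        linarith
    unfold Gexp
    refine le_min (hF1 y).le ?_
    calc F y = Real.exp (Real.log (F y)) := (Real.exp_log (hF0 y)).symm
      _ ≤ _ := Real.exp_le_exp.2 h4

lemma slope_bound {F : ℝ → ℝ}
    (hconc : ConcaveOn ℝ univ (fun y => Real.log (F y)))
    {p q : ℝ} (hp : 0 < p) (hpq : p < q) :
    (Real.log (F (-1)) - Real.log (F 0)) * (q - p) ≤ Real.log (F p) - Real.log (F q) := by
  have h1 : (p - 0) * Real.log (F (-1)) + (0 - (-1)) * Real.log (F p)
      ≤ (p - (-1)) * Real.log (F 0) :=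
    concave_three hconc (by norm_num : (-1:ℝ) ≤ 0) hp.le
  have h2 : (q - p) * Real.log (F 0) + (p - 0) * Real.log (F q) ≤ (q - 0) * Real.log (F p) :=
    concave_three hconc hp.le hpq.le
  have h3 : (Real.log (F (-1)) - Real.log (F 0)) * p ≤ Real.log (F 0) - Real.log (F p) := by
    linarith
  have h4 : (q - p) * (Real.log (F 0) - Real.log (F p))
      ≤ p * (Real.log (F p) - Real.log (F q)) := by linarith
  have h5 : p * ((Real.log (F (-1)) - Real.log (F 0)) * (q - p))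
      ≤ p * (Real.log (F p) - Real.log (F q)) := by
    have := mul_le_mul_of_nonneg_left h3 (sub_pos.2 hpq).le
    linarith
  exact le_of_mul_le_mul_left h5 hp

lemma crossing_ineq {F : ℝ → ℝ} (hFc : Continuous F) (hF0 : ∀ y, 0 < F y) (hF1 : ∀ y, F y < 1)
    (hconc : ConcaveOn ℝ univ (fun y => Real.log (F y)))
    (hint : Integrable (fun y => F y - hv (4 / 3 - y)))
    (hmean : ∫ y, (F y - hv (4 / 3 - y)) = 0)
    {p q m : ℝ} (hp : 0 < p) (hp1 : p ≤ 1) (hq1 : 1 ≤ q) (hmp : om p = m) (hmq : om q = m)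
    (hD : Real.log (F q) < Real.log (F p)) :
    KK (tch F p q) (uch F p q) - m * (tch F p q + uch F p q - 4 / 3)
      ≤ ∫ y in Ioi (0:ℝ), om y * F y := by
  have hpq : p < q := lt_of_le_of_ne (hp1.trans hq1)
    (fun h => by rw [h] at hD; exact lt_irrefl _ hD)
  have ht : 0 < tch F p q := div_pos (sub_pos.2 hpq) (sub_pos.2 hD)
  obtain ⟨hin, hout⟩ := chord_cmp hF0 hF1 hconc hpq hD
  generalize tch F p q = t at ht hin hout ⊢
  generalize uch F p q = u at hin hout ⊢
  have hm0 : 0 ≤ m := hmp ▸ om_nonneg hp.le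
  set W : ℝ → ℝ := (Ioi (0:ℝ)).indicator om with hW
  have hpt : ∀ y, 0 ≤ (F y - Gexp t (u - y)) * (W y - m) := by
    intro y
    by_cases hy : p ≤ y ∧ y ≤ q
    · have h1 := hin y hy.1 hy.2
      have hy0 : 0 < y := lt_of_lt_of_le hp hy.1
      have hWy : W y = om y := indicator_of_mem (mem_Ioi.2 hy0) om
      have h2 : m ≤ W y := by
        rw [hWy]
        rcases le_total y 1 with hy1 | hy1
        · rw [← hmp]; exact om_mono01 hp.le hy.1 hy1
        · rw [← hmq]; exact om_anti1 hy1 hy.2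
      exact mul_nonneg (sub_nonneg.2 h1) (sub_nonneg.2 h2)
    · have hy' : y < p ∨ q < y := by
        by_contra hcon
        exact hy ⟨not_lt.1 (fun h => hcon (Or.inl h)), not_lt.1 (fun h => hcon (Or.inr h))⟩
      have h1 := hout y hy'
      have h2 : W y ≤ m := by
        rcases hy' with hy' | hy'
        · by_cases hy0 : 0 < y
          · rw [hW, indicator_of_mem (mem_Ioi.2 hy0), ← hmp]
            exact om_mono01 hy0.le hy'.le hp1
          · rw [hW, indicator_of_notMem (show y ∉ Ioi (0:ℝ) from fun hmem => hy0 hmem)]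
            exact hm0
        · have hy0 : 0 < y := by linarith
          rw [hW, indicator_of_mem (mem_Ioi.2 hy0), ← hmq]
          exact om_anti1 hq1 hy'.le
      exact mul_nonneg_of_nonpos_of_nonpos (sub_nonpos.2 h1) (sub_nonpos.2 h2)
  have hE := Gexp_sub_hv ht u (4 / 3)
  have hFEeq : (fun y => F y - Gexp t (u - y))
      = fun y => (F y - hv (4 / 3 - y)) - (Gexp t (u - y) - hv (4 / 3 - y)) := by
    funext y; ring
  have hFE : Integrable (fun y => F y - Gexp t (u - y)) := by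
    rw [hFEeq]; exact hint.sub hE.1
  have hFEint : ∫ y, (F y - Gexp t (u - y)) = -(t + u - 4 / 3) := by
    rw [hFEeq, integral_sub hint hE.1, hmean, hE.2]; ring
  have hFom : IntegrableOn (fun y => om y * F y) (Ioi 0) := by
    refine Integrable.mono' (integrableOn_om 0 le_rfl).abs ?_ ?_
    · exact (continuous_om.mul hFc).aestronglyMeasurable
    · refine Eventually.of_forall (fun y => ?_)
      rw [Real.norm_eq_abs, abs_mul, abs_of_pos (hF0 y)]
      have := abs_nonneg (om y)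
      nlinarith [hF1 y]
  have hEom := integrableOn_om_Gexp t u
  have hprodW : (fun y => (F y - Gexp t (u - y)) * W y)
      = (Ioi (0:ℝ)).indicator (fun y => om y * F y - om y * Gexp t (u - y)) := by
    funext y
    by_cases hy0 : y ∈ Ioi (0:ℝ)
    · rw [hW, indicator_of_mem hy0, indicator_of_mem hy0]; ring
    · rw [hW, indicator_of_notMem hy0, indicator_of_notMem hy0]; ring
  have hIW : Integrable (fun y => (F y - Gexp t (u - y)) * W y) := by
    rw [hprodW]
    exact (integrable_indicator_iff measurableSet_Ioi).2 (hFom.sub hEom)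
  have hIWval : ∫ y, (F y - Gexp t (u - y)) * W y
      = (∫ y in Ioi (0:ℝ), om y * F y) - KK t u := by
    rw [hprodW, integral_indicator measurableSet_Ioi, integral_sub hFom hEom]; rfl
  have htot : 0 ≤ ∫ y, (F y - Gexp t (u - y)) * (W y - m) := integral_nonneg hpt
  have hsplit : ∫ y, (F y - Gexp t (u - y)) * (W y - m)
      = (∫ y, (F y - Gexp t (u - y)) * W y) - m * ∫ y, (F y - Gexp t (u - y)) := by
    have : (fun y => (F y - Gexp t (u - y)) * (W y - m))
        = fun y => (F y - Gexp t (u - y)) * W y - m * (F y - Gexp t (u - y)) := by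
      funext y; ring
    rw [this, integral_sub hIW (hFE.const_mul m), integral_const_mul]
  rw [hsplit, hIWval, hFEint] at htot
  linarith

theorem thmA {F : ℝ → ℝ} (hFc : Continuous F) (hF0 : ∀ y, 0 < F y) (hF1 : ∀ y, F y < 1)
    (hanti : Antitone F) (hstrict : F 0 < F (-1))
    (hconc : ConcaveOn ℝ univ (fun y => Real.log (F y)))
    (hint : Integrable (fun y => F y - hv (4 / 3 - y)))
    (hmean : ∫ y, (F y - hv (4 / 3 - y)) = 0) :
    kap ≤ ∫ y in Ioi (0:ℝ), om y * F y := by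
  by_contra hcon
  have hδ : 0 < kap - ∫ y in Ioi (0:ℝ), om y * F y := by linarith [not_le.1 hcon]
  set δ := kap - ∫ y in Ioi (0:ℝ), om y * F y with hδdef
  set L : ℝ → ℝ := fun y => Real.log (F y) with hL
  have hLc : Continuous L := hFc.log (fun y => (hF0 y).ne')
  set lam0 := L (-1) - L 0 with hlam0def
  have hlam0 : 0 < lam0 := sub_pos.2 (Real.log_lt_log (hF0 0) hstrict)
  have hDρ : ∀ ρ, 1 < ρ → lam0 * (qq ρ - pp ρ) ≤ L (pp ρ) - L (qq ρ) :=
    fun ρ h => slope_bound hconc (pp_pos h) (pp_lt_qq h)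
  have hDpos : ∀ ρ, 1 < ρ → L (qq ρ) < L (pp ρ) := by
    intro ρ h
    have := hDρ ρ h
    have h2 : 0 < lam0 * (qq ρ - pp ρ) := mul_pos hlam0 (sub_pos.2 (pp_lt_qq h))
    linarith
  set tt : ℝ → ℝ := fun ρ => tch F (pp ρ) (qq ρ) with htt
  set uu : ℝ → ℝ := fun ρ => uch F (pp ρ) (qq ρ) with huu
  set mu : ℝ → ℝ := fun ρ => tt ρ + uu ρ - 4 / 3 with hmu
  have htpos : ∀ ρ, 1 < ρ → 0 < tt ρ :=
    fun ρ h => div_pos (sub_pos.2 (pp_lt_qq h)) (sub_pos.2 (hDpos ρ h))
  have htle : ∀ ρ, 1 < ρ → tt ρ ≤ 1 / lam0 := by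
    intro ρ h
    show (qq ρ - pp ρ) / (L (pp ρ) - L (qq ρ)) ≤ 1 / lam0
    rw [div_le_div_iff₀ (sub_pos.2 (hDpos ρ h)) hlam0]
    linarith [hDρ ρ h]
  have hkey1 : ∀ ρ, 1 < ρ → 0 ≤ mu ρ → δ ≤ om (pp ρ) * mu ρ := by
    intro ρ h hmu0
    have hc := crossing_ineq hFc hF0 hF1 hconc hint hmean (pp_pos h) (pp_lt_one h).le
      (one_lt_qq h).le rfl (om_qq_eq_om_pp h) (hDpos ρ h)
    have hmu0' : 0 ≤ tt ρ + uu ρ - 4 / 3 := hmu0
    have hk := kap_le_KK_of_mu_nonneg (htpos ρ h) (u := uu ρ) (by linarith)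
    show δ ≤ om (pp ρ) * (tt ρ + uu ρ - 4 / 3)
    have hc' : KK (tt ρ) (uu ρ) - om (pp ρ) * (tt ρ + uu ρ - 4 / 3)
        ≤ ∫ y in Ioi (0:ℝ), om y * F y := hc
    linarith
  have hkey2 : ∀ ρ, 1 < ρ → mu ρ ≤ 0 → δ ≤ (Real.exp (-1) - om (pp ρ)) * (-mu ρ) := by
    intro ρ h hmu0
    have hc := crossing_ineq hFc hF0 hF1 hconc hint hmean (pp_pos h) (pp_lt_one h).le
      (one_lt_qq h).le rfl (om_qq_eq_om_pp h) (hDpos ρ h)
    have hmu0' : tt ρ + uu ρ - 4 / 3 ≤ 0 := hmu0
    have hk := kap_le_KK_of_mu_nonpos (htpos ρ h) (u := uu ρ) (by linarith)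
    show δ ≤ (Real.exp (-1) - om (pp ρ)) * (-(tt ρ + uu ρ - 4 / 3))
    have hc' : KK (tt ρ) (uu ρ) - om (pp ρ) * (tt ρ + uu ρ - 4 / 3)
        ≤ ∫ y in Ioi (0:ℝ), om y * F y := hc
    linarith
  set M := 1 + 4 / 3 + (1 + |L 1|) / lam0 with hM
  have hMpos : 0 < M := by positivity
  have hmub : ∀ ρ, 1 < ρ → |mu ρ| ≤ M := by
    intro ρ h
    have hp0 := pp_pos h
    have hp1 := pp_lt_one h
    have ht0 := htpos ρ h
    have ht1 := htle ρ h
    have hLp_neg : L (pp ρ) < 0 := Real.log_neg (hF0 _) (hF1 _)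
    have hLp_ge : L 1 ≤ L (pp ρ) := Real.log_le_log (hF0 _) (hanti hp1.le)
    have hmu_eq : mu ρ = pp ρ + tt ρ * (1 + L (pp ρ)) - 4 / 3 := by
      show tt ρ + (pp ρ + tt ρ * L (pp ρ)) - 4 / 3 = pp ρ + tt ρ * (1 + L (pp ρ)) - 4 / 3
      ring
    have habs := neg_abs_le (L 1)
    have ha : 0 ≤ |L 1| := abs_nonneg _
    have hinv : 0 < 1 / lam0 := by positivity
    have h1 : tt ρ * (1 + L (pp ρ)) ≤ 1 / lam0 := by
      have : tt ρ * (1 + L (pp ρ)) ≤ tt ρ * 1 :=
        mul_le_mul_of_nonneg_left (by linarith) ht0.le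
      linarith
    have h2a : tt ρ * (-|L 1|) ≤ tt ρ * (1 + L (pp ρ)) :=
      mul_le_mul_of_nonneg_left (by linarith) ht0.le
    have h2b : (1 / lam0) * (-|L 1|) ≤ tt ρ * (-|L 1|) :=
      mul_le_mul_of_nonpos_right ht1 (by linarith)
    have hMe : M = 1 + 4 / 3 + 1 / lam0 + (1 / lam0) * |L 1| := by
      rw [hM]; field_simp; ring
    rw [abs_le, hmu_eq, hMe]
    constructor
    · nlinarith
    · nlinarith
  have hcont : ContinuousOn mu (Ioi 1) := by
    have hpc : ContinuousOn pp (Ioi 1) := by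
      unfold pp
      refine ContinuousOn.div ?_ (by fun_prop) ?_
      · exact Real.continuousOn_log.mono (fun ρ hρ => by
          have : (0:ℝ) < ρ := lt_trans one_pos hρ
          simpa using this.ne')
      · intro ρ hρ; exact (sub_pos.2 (mem_Ioi.1 hρ)).ne'
    have hqc : ContinuousOn qq (Ioi 1) := by
      unfold qq; exact continuousOn_id.mul hpc
    have hLp : ContinuousOn (fun ρ => L (pp ρ)) (Ioi 1) := hLc.comp_continuousOn hpc
    have hLq : ContinuousOn (fun ρ => L (qq ρ)) (Ioi 1) := hLc.comp_continuousOn hqc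
    have htc : ContinuousOn tt (Ioi 1) := by
      show ContinuousOn (fun ρ => (qq ρ - pp ρ) / (L (pp ρ) - L (qq ρ))) (Ioi 1)
      exact (hqc.sub hpc).div (hLp.sub hLq) (fun ρ hρ => (sub_pos.2 (hDpos ρ hρ)).ne')
    have huc : ContinuousOn uu (Ioi 1) := by
      show ContinuousOn (fun ρ => pp ρ + tt ρ * L (pp ρ)) (Ioi 1)
      exact hpc.add (htc.mul hLp)
    exact (htc.add huc).sub continuousOn_const
  obtain ⟨ρ₁, hρ₁, hmu1⟩ : ∃ ρ₁, 1 < ρ₁ ∧ 0 < mu ρ₁ := by
    set η := min 1 (δ / (2 * M)) with hη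
    have hη0 : 0 < η := lt_min one_pos (by positivity)
    have hη1 : η ≤ 1 := min_le_left _ _
    have hη2 : η ≤ δ / (2 * M) := min_le_right _ _
    refine ⟨1 + η, by linarith, ?_⟩
    by_contra hneg
    have hle : mu (1 + η) ≤ 0 := not_lt.1 hneg
    have h1 := hkey2 (1 + η) (by linarith) hle
    have h2 := exp_sub_om_le (ρ := 1 + η) (by linarith)
    have h3 := hmub (1 + η) (by linarith)
    have h4 : -mu (1 + η) ≤ M := (neg_le_abs _).trans h3
    have h5 : 0 ≤ Real.exp (-1) - om (pp (1 + η)) := sub_nonneg.2 (om_le _)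
    have h6 : (Real.exp (-1) - om (pp (1 + η))) * (-mu (1 + η)) ≤ η ^ 2 * M := by
      have e : (1 + η - 1) ^ 2 = η ^ 2 := by ring
      rw [e] at h2
      exact mul_le_mul h2 h4 (by linarith) (by positivity)
    have h7 : η ^ 2 * M ≤ δ / 2 := by
      have h8 : η ^ 2 ≤ η := by nlinarith
      calc η ^ 2 * M ≤ η * M := mul_le_mul_of_nonneg_right h8 hMpos.le
        _ ≤ δ / (2 * M) * M := mul_le_mul_of_nonneg_right hη2 hMpos.le
        _ = δ / 2 := by field_simp
    linarith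
  obtain ⟨ρ₂, hρ₂, hmu2⟩ : ∃ ρ₂, 1 < ρ₂ ∧ mu ρ₂ < 0 := by
    set r := 2 * M / δ + 2 with hr
    have hr0 : 0 < 2 * M / δ := by positivity
    have hr1 : 1 < r := by linarith
    have hr2 : 1 < r ^ 2 := by nlinarith
    refine ⟨r ^ 2, hr2, ?_⟩
    by_contra hneg
    have hge : 0 ≤ mu (r ^ 2) := not_lt.1 hneg
    have h1 := hkey1 (r ^ 2) hr2 hge
    have h2 := om_pp_sq_le hr1
    have h3 := hmub (r ^ 2) hr2
    have h4 : mu (r ^ 2) ≤ M := (le_abs_self _).trans h3
    have h5 : om (pp (r ^ 2)) * mu (r ^ 2) ≤ 2 / r * M :=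
      mul_le_mul h2 h4 hge (by positivity)
    have h6 : 2 / r * M < δ := by
      rw [div_mul_eq_mul_div, div_lt_iff₀ (by linarith)]
      have e : δ * r = 2 * M + 2 * δ := by rw [hr]; field_simp
      rw [e]; linarith
    linarith
  have hsub : uIcc ρ₁ ρ₂ ⊆ Ioi 1 := by
    intro x hx
    exact mem_Ioi.2 (lt_of_lt_of_le (lt_min hρ₁ hρ₂) hx.1)
  have hivt := intermediate_value_uIcc (hcont.mono hsub)
  have h0 : (0:ℝ) ∈ uIcc (mu ρ₁) (mu ρ₂) := mem_uIcc.2 (Or.inr ⟨hmu2.le, hmu1.le⟩)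
  obtain ⟨ρ, hρ, hρ0⟩ := hivt h0
  have hρ1 : 1 < ρ := hsub hρ
  have := hkey1 ρ hρ1 (by rw [hρ0])
  rw [hρ0, mul_zero] at this
  linarith

theorem Good.kap_le_pairing {G : ℝ → ℝ} (h : Good G 0) (h1 : ∀ v, G v < 1) :
    kap ≤ ∫ y in Ioi (0:ℝ), om y * G (4 / 3 - y) := by
  refine thmA (F := fun y => G (4 / 3 - y)) (h.cont.comp (by fun_prop)) (fun y => h.pos _)
    (fun y => h1 _) ?_ ?_ ?_ ?_ ?_
  · intro y y' hyy'; exact h.mono (by linarith)
  · exact h.strictMono h1 (by norm_num)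
  · refine ⟨convex_univ, fun x _ y _ a b ha hb hab => ?_⟩
    have := h.conc.2 (mem_univ (4 / 3 - x)) (mem_univ (4 / 3 - y)) ha hb hab
    have e : a • (4 / 3 - x) + b • (4 / 3 - y) = 4 / 3 - (a • x + b • y) := by
      simp only [smul_eq_mul]; linear_combination (4 / 3) * hab
    rw [e] at this; exact this
  · exact h.intg.comp_sub_left (4 / 3)
  · rw [integral_sub_left_eq_self (fun v => G v - hv v) volume (4 / 3)]; exact h.mean

end Crest.Agent.Helper1
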